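import Vale.Agent.P146.H605.Low

/-!
# P146: smoothing the disorder costs at most `(1 - t) β² n / 4`; `E F_2 > 2 log 2`
-/

open MeasureTheory ProbabilityTheory

namespace Vale.Agent.P146.R2.H952

open Vale.Agent.P146.H605 Vale.Agent.P146.Ub.Cv

section

variable {ι : Type*} [Fintype ι]

/-- exponential moments of linear functions -/
lemma int_exp_lin (c : ι → ℝ) :
    ∫ g, Real.exp (∑ i, c i * g i) ∂(gpi ι) = Real.exp ((∑ i, c i ^ 2) / 2) := by
  have h1 : (fun g : ι → ℝ => Real.exp (∑ i, c i * g i)) =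
      fun g => ∏ i, Real.exp (c i * g i) := by
    funext g
    rw [Real.exp_sum]
  rw [h1]
  unfold gpi
  rw [integral_fintype_prod_eq_prod (f := fun i x => Real.exp (c i * x)), Finset.sum_div,
    Real.exp_sum]
  refine Finset.prod_congr rfl fun i _ => ?_
  have h := mgf_gaussianReal (p := gaussianReal 0 1) (X := id) (μ := 0) (v := 1) (by simp) (c i)
  simp only [mgf, id] at h
  rw [h]
  congr 1
  simp

end

variable {n : ℕ} {β : ℝ}

/-- the coefficients of the Hamiltonian -/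
noncomputable def hco (n : ℕ) (b : ℝ) (σ : Fin n → ℤˣ) (p : Pair n) : ℝ :=
  b * (1 / Real.sqrt n) * ((σ p.1.1 : ℤ) : ℝ) * ((σ p.1.2 : ℤ) : ℝ)

lemma mul_hamiltonian (b : ℝ) (g : Pair n → ℝ) (σ : Fin n → ℤˣ) :
    b * hamiltonian n g σ = ∑ p, hco n b σ p * g p := by
  unfold hamiltonian hco
  rw [← mul_assoc, Finset.mul_sum]
  refine Finset.sum_congr rfl fun p _ => ?_
  ring

lemma unit_sq (u : ℤˣ) : ((u : ℤ) : ℝ) ^ 2 = 1 := by
  rcases Int.units_eq_one_or u with h | h <;> simp [h]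

lemma sum_hco_sq (hn : 1 ≤ n) (b : ℝ) (σ : Fin n → ℤˣ) :
    (∑ p, hco n b σ p ^ 2) / 2 ≤ b ^ 2 * n / 4 := by
  have hn0 : (0 : ℝ) < n := by exact_mod_cast hn
  have h1 : ∀ p : Pair n, hco n b σ p ^ 2 = b ^ 2 / n := by
    intro p
    unfold hco
    rw [mul_pow, mul_pow, mul_pow, unit_sq, unit_sq, div_pow, one_pow, Real.sq_sqrt hn0.le]
    ring
  rw [Finset.sum_congr rfl fun p _ => h1 p, Finset.sum_const, nsmul_eq_mul, Finset.card_univ]
  have h2 : (Fintype.card (Pair n) : ℝ) ≤ (n : ℝ) ^ 2 / 2 := card_pair_le n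
  have h3 : (Fintype.card (Pair n) : ℝ) * (b ^ 2 / n) ≤ (n : ℝ) ^ 2 / 2 * (b ^ 2 / n) :=
    mul_le_mul_of_nonneg_right h2 (by positivity)
  have h4 : (n : ℝ) ^ 2 / 2 * (b ^ 2 / n) = b ^ 2 * n / 2 := by
    field_simp
  linarith

lemma int_exp_hamiltonian (hn : 1 ≤ n) (b : ℝ) (σ : Fin n → ℤˣ) :
    ∫ g, Real.exp (b * hamiltonian n g σ) ∂(disorder n) ≤ Real.exp (b ^ 2 * n / 4) := by
  have h1 : ∫ g, Real.exp (b * hamiltonian n g σ) ∂(disorder n) =
      ∫ g, Real.exp (∑ p, hco n b σ p * g p) ∂(gpi (Pair n)) := by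
    refine integral_congr_ae (Filter.Eventually.of_forall fun g => ?_)
    simp only [mul_hamiltonian]
  rw [h1, int_exp_lin]
  exact Real.exp_le_exp.2 (sum_hco_sq hn b σ)

lemma hamiltonian_comb (a b : ℝ) (z g : Pair n → ℝ) (σ : Fin n → ℤˣ) :
    hamiltonian n (fun p => a * z p + b * g p) σ =
      a * hamiltonian n z σ + b * hamiltonian n g σ := by
  unfold hamiltonian
  have : ∀ p : Pair n, (a * z p + b * g p) * ((σ p.1.1 : ℤ) : ℝ) * ((σ p.1.2 : ℤ) : ℝ) =
      a * (z p * ((σ p.1.1 : ℤ) : ℝ) * ((σ p.1.2 : ℤ) : ℝ)) +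
        b * (g p * ((σ p.1.1 : ℤ) : ℝ) * ((σ p.1.2 : ℤ) : ℝ)) := fun p => by ring
  simp only [this]
  rw [Finset.sum_add_distrib, ← Finset.mul_sum, ← Finset.mul_sum]
  ring

lemma partition_pos (g : Pair n → ℝ) : 0 < partitionFn n β g :=
  Finset.sum_pos (fun _ _ => Real.exp_pos _) ⟨1, Finset.mem_univ _⟩

/-- Jensen for the average over the second disorder -/
lemma smooth_le_scale (hn : 1 ≤ n) (β : ℝ) {t : ℝ} (h1 : t ≤ 1) (z : Pair n → ℝ) :
    ∫ g, freeEnergy n β (mixed n t z g) ∂(disorder n) ≤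
      freeEnergy n β (fun p => Real.sqrt t * z p) + (1 - t) * β ^ 2 * n / 4 := by
  obtain ⟨Z0, hZ0⟩ : ∃ Z0, Z0 = partitionFn n β (fun p => Real.sqrt t * z p) := ⟨_, rfl⟩
  have hZ0p : 0 < Z0 := by
    rw [hZ0]
    exact partition_pos _
  obtain ⟨K, hK⟩ : ∃ K, K = (1 - t) * β ^ 2 * n / 4 := ⟨_, rfl⟩
  have hZ : ∀ g, partitionFn n β (mixed n t z g) = ∑ σ : Fin n → ℤˣ,
      Real.exp (β * (Real.sqrt t * hamiltonian n z σ)) *
        Real.exp ((β * Real.sqrt (1 - t)) * hamiltonian n g σ) := by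
    intro g
    unfold partitionFn mixed
    refine Finset.sum_congr rfl fun σ _ => ?_
    rw [hamiltonian_comb, ← Real.exp_add]
    congr 1
    ring
  have hZ0' : Z0 = ∑ σ : Fin n → ℤˣ, Real.exp (β * (Real.sqrt t * hamiltonian n z σ)) := by
    rw [hZ0]
    unfold partitionFn
    refine Finset.sum_congr rfl fun σ _ => ?_
    have := hamiltonian_comb (Real.sqrt t) 0 z z σ
    simp only [zero_mul, add_zero] at this
    rw [this]
  have hdom : ∀ σ : Fin n → ℤˣ,
      Dom (fun g : Pair n → ℝ => Real.exp ((β * Real.sqrt (1 - t)) * hamiltonian n g σ)) := by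
    intro σ
    have h2 : (fun g : Pair n → ℝ => Real.exp ((β * Real.sqrt (1 - t)) * hamiltonian n g σ)) =
        fun g => ∏ p, Real.exp (hco n (β * Real.sqrt (1 - t)) σ p * g p) := by
      funext g
      rw [mul_hamiltonian, Real.exp_sum]
    rw [h2]
    refine Dom.prod Finset.univ fun p _ => ?_
    refine ⟨by fun_prop, 1, |hco n (β * Real.sqrt (1 - t)) σ p|, zero_le_one, abs_nonneg _,
      fun g => ?_⟩
    rw [Real.abs_exp, one_mul]
    refine Real.exp_le_exp.2 ?_
    have h3 : |g p| ≤ ∑ i, |g i| := Finset.single_le_sum (f := fun i => |g i|)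
      (fun _ _ => abs_nonneg _) (Finset.mem_univ p)
    refine (le_abs_self _).trans ?_
    rw [abs_mul]
    exact mul_le_mul_of_nonneg_left h3 (abs_nonneg _)
  have hZdom : Dom (fun g => partitionFn n β (mixed n t z g)) := by
    refine Dom.congr (f := fun g => ∑ σ : Fin n → ℤˣ,
      Real.exp (β * (Real.sqrt t * hamiltonian n z σ)) *
        Real.exp ((β * Real.sqrt (1 - t)) * hamiltonian n g σ)) ?_ hZ
    exact Dom.sum Finset.univ fun σ _ => (hdom σ).const_mul _
  have hint : ∫ g, partitionFn n β (mixed n t z g) ∂(gpi (Pair n)) ≤ Z0 * Real.exp K := by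
    have e1 : (fun g => partitionFn n β (mixed n t z g)) = fun g => ∑ σ : Fin n → ℤˣ,
      Real.exp (β * (Real.sqrt t * hamiltonian n z σ)) *
        Real.exp ((β * Real.sqrt (1 - t)) * hamiltonian n g σ) := funext hZ
    rw [e1, int_sum _ fun σ _ => (hdom σ).const_mul _, hZ0', Finset.sum_mul]
    refine Finset.sum_le_sum fun σ _ => ?_
    rw [integral_const_mul]
    refine mul_le_mul_of_nonneg_left ?_ (Real.exp_pos _).le
    refine (int_exp_hamiltonian hn _ σ).trans (Real.exp_le_exp.2 ?_)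
    rw [hK, mul_pow, Real.sq_sqrt (by linarith)]
    apply le_of_eq
    ring
  have hF : ∀ g, freeEnergy n β (mixed n t z g) ≤
      Real.log (Z0 * Real.exp K) + (Z0 * Real.exp K)⁻¹ * partitionFn n β (mixed n t z g) - 1 := by
    intro g
    have hc : 0 < Z0 * Real.exp K := mul_pos hZ0p (Real.exp_pos _)
    have hp := partition_pos (β := β) (mixed n t z g)
    have h2 := Real.log_le_sub_one_of_pos (mul_pos (inv_pos.2 hc) hp)
    rw [Real.log_mul (inv_pos.2 hc).ne' hp.ne', Real.log_inv] at h2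
    unfold freeEnergy
    linarith
  have hFdom : Dom (fun g => freeEnergy n β (mixed n t z g)) := by
    have := freeEnergy_dom n β
    obtain ⟨C, c, hC, hc, hb⟩ := this.bound
    refine ⟨this.cont.comp (by unfold mixed; fun_prop), C * Real.exp (c * ∑ p, |Real.sqrt t * z p|),
      c * |Real.sqrt (1 - t)|, by positivity, by positivity, fun g => (hb _).trans ?_⟩
    rw [mul_assoc C, ← Real.exp_add]
    refine mul_le_mul_of_nonneg_left (Real.exp_le_exp.2 ?_) hC
    have h3 : ∑ p, |mixed n t z g p| ≤ ∑ p, |Real.sqrt t * z p| + |Real.sqrt (1 - t)| * ∑ p, |g p| := by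
      rw [Finset.mul_sum, ← Finset.sum_add_distrib]
      refine Finset.sum_le_sum fun p _ => ?_
      unfold mixed
      rw [← abs_mul]
      exact abs_add_le _ _
    have := mul_le_mul_of_nonneg_left h3 hc
    linarith
  have h5 : ∫ g, freeEnergy n β (mixed n t z g) ∂(disorder n) ≤
      ∫ g, (Real.log (Z0 * Real.exp K) +
        (Z0 * Real.exp K)⁻¹ * partitionFn n β (mixed n t z g) - 1) ∂(gpi (Pair n)) :=
    int_mono hFdom (((Dom.const _).add (hZdom.const_mul _)).sub (Dom.const _)) hF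
  refine h5.trans ?_
  have hc : 0 < Z0 * Real.exp K := mul_pos hZ0p (Real.exp_pos _)
  rw [int_sub ((Dom.const _).add (hZdom.const_mul _)) (Dom.const _), int_add (Dom.const _)
    (hZdom.const_mul _), integral_const_mul]
  simp only [integral_const, probReal_univ, smul_eq_mul, one_mul]
  have h6 : (Z0 * Real.exp K)⁻¹ * ∫ g, partitionFn n β (mixed n t z g) ∂(gpi (Pair n)) ≤ 1 := by
    rw [inv_mul_le_iff₀ hc, mul_one]
    exact hint
  have h7 : Real.log (Z0 * Real.exp K) = freeEnergy n β (fun p => Real.sqrt t * z p) + K := by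
    rw [Real.log_mul hZ0p.ne' (Real.exp_pos _).ne', Real.log_exp, hZ0]
    rfl
  rw [← hK]
  linarith

lemma sum_spin_pair (p : Pair n) :
    ∑ σ : Fin n → ℤˣ, ((σ p.1.1 : ℤ) : ℝ) * ((σ p.1.2 : ℤ) : ℝ) = 0 := by
  have hne : p.1.2 ≠ p.1.1 := (ne_of_lt p.2).symm
  have h1 := Equiv.sum_comp (Equiv.mulRight (Pi.mulSingle p.1.1 (-1) : Fin n → ℤˣ))
    (fun σ : Fin n → ℤˣ => ((σ p.1.1 : ℤ) : ℝ) * ((σ p.1.2 : ℤ) : ℝ))
  have h2 : ∀ σ : Fin n → ℤˣ,
      (((Equiv.mulRight (Pi.mulSingle p.1.1 (-1) : Fin n → ℤˣ) σ) p.1.1 : ℤ) : ℝ) *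
        (((Equiv.mulRight (Pi.mulSingle p.1.1 (-1) : Fin n → ℤˣ) σ) p.1.2 : ℤ) : ℝ) =
      -(((σ p.1.1 : ℤ) : ℝ) * ((σ p.1.2 : ℤ) : ℝ)) := by
    intro σ
    simp [Equiv.coe_mulRight, Pi.mulSingle_eq_of_ne hne]
  rw [Finset.sum_congr rfl fun σ _ => h2 σ, Finset.sum_neg_distrib] at h1
  linarith

/-- `F(0) ≤ F(z)` -/
lemma freeEnergy_zero_le (β : ℝ) (z : Pair n → ℝ) :
    freeEnergy n β (fun _ => 0) ≤ freeEnergy n β z := by
  refine Real.log_le_log (partition_pos _) ?_
  have h0 : partitionFn n β (fun _ => 0) = ∑ _σ : Fin n → ℤˣ, (1 : ℝ) := by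
    unfold partitionFn hamiltonian
    simp
  have h1 : ∑ σ : Fin n → ℤˣ, β * hamiltonian n z σ = 0 := by
    unfold hamiltonian
    rw [← Finset.mul_sum, ← Finset.mul_sum, Finset.sum_comm]
    rw [Finset.sum_eq_zero fun p _ => ?_]
    · ring
    · have := sum_spin_pair p
      simp only [mul_assoc]
      rw [← Finset.mul_sum, this, mul_zero]
  have h2 : ∑ σ : Fin n → ℤˣ, (β * hamiltonian n z σ + 1) ≤ partitionFn n β z :=
    Finset.sum_le_sum fun σ _ => Real.add_one_le_exp _
  rw [Finset.sum_add_distrib, h1, zero_add] at h2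
  rw [h0]
  exact h2

/-- **smoothing** -/
theorem smooth_le (hn : 1 ≤ n) (β : ℝ) {t : ℝ} (_h0 : 0 ≤ t) (h1 : t ≤ 1) (z : Pair n → ℝ) :
    ∫ g, freeEnergy n β (mixed n t z g) ∂(disorder n) ≤
      freeEnergy n β z + (1 - t) * β ^ 2 * n / 4 := by
  refine (smooth_le_scale hn β h1 z).trans ?_
  have hs0 := Real.sqrt_nonneg t
  have hs1 : Real.sqrt t ≤ 1 := Real.sqrt_le_one.2 h1
  have h2 := (convex_freeEnergy n β).2 (Set.mem_univ z) (Set.mem_univ (fun _ => (0 : ℝ))) hs0
    (sub_nonneg.2 hs1) (by ring)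
  have h3 : Real.sqrt t • z + (1 - Real.sqrt t) • (fun _ => (0 : ℝ)) =
      fun p => Real.sqrt t * z p := by
    funext p
    simp
  rw [h3] at h2
  simp only [smul_eq_mul] at h2
  have h4 := mul_le_mul_of_nonneg_left (freeEnergy_zero_le β z) (sub_nonneg.2 hs1)
  have h5 : Real.sqrt t * freeEnergy n β z + (1 - Real.sqrt t) * freeEnergy n β z =
      freeEnergy n β z := by ring
  linarith

/-- strict form of `F(0) ≤ F(z)` -/
lemma freeEnergy_zero_lt {β : ℝ} {z : Pair n → ℝ} {σ : Fin n → ℤˣ}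
    (h : β * hamiltonian n z σ ≠ 0) :
    freeEnergy n β (fun _ => 0) < freeEnergy n β z := by
  refine Real.log_lt_log (partition_pos _) ?_
  have h0 : partitionFn n β (fun _ => 0) = ∑ _σ : Fin n → ℤˣ, (1 : ℝ) := by
    unfold partitionFn hamiltonian
    simp
  have h1 : ∑ σ : Fin n → ℤˣ, β * hamiltonian n z σ = 0 := by
    unfold hamiltonian
    rw [← Finset.mul_sum, ← Finset.mul_sum, Finset.sum_comm]
    rw [Finset.sum_eq_zero fun p _ => ?_]
    · ring
    · have := sum_spin_pair p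
      simp only [mul_assoc]
      rw [← Finset.mul_sum, this, mul_zero]
  have h2 : ∑ σ : Fin n → ℤˣ, (β * hamiltonian n z σ + 1) < partitionFn n β z :=
    Finset.sum_lt_sum (fun σ _ => Real.add_one_le_exp _)
      ⟨σ, Finset.mem_univ _, Real.add_one_lt_exp h⟩
  rw [Finset.sum_add_distrib, h1, zero_add] at h2
  rw [h0]
  exact h2

lemma freeEnergy_zero (β : ℝ) : freeEnergy n β (fun _ => 0) = n * Real.log 2 := by
  unfold freeEnergy partitionFn hamiltonian
  simp [Real.log_pow]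

/-- the first coupling of two spins -/
def pair2 : Pair 2 := ⟨(0, 1), by decide⟩

/-- `E F_2 > 2 log 2` -/
theorem two_log_two_lt (hβ : β ≠ 0) :
    2 * Real.log 2 < ∫ g, freeEnergy 2 β g ∂(disorder 2) := by
  have hd := freeEnergy_dom 2 β
  have hsub : Dom (fun g => freeEnergy 2 β g - 2 * Real.log 2) := hd.sub (Dom.const _)
  have hnn : ∀ g, 0 ≤ freeEnergy 2 β g - 2 * Real.log 2 := by
    intro g
    have := freeEnergy_zero_le β g
    rw [freeEnergy_zero] at this
    push_cast at this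
    linarith
  have hpos : 0 < ∫ g, (freeEnergy 2 β g - 2 * Real.log 2) ∂(gpi (Pair 2)) := by
    rw [integral_pos_iff_support_of_nonneg hnn hsub.integrable]
    by_contra hcon
    have h0 : gpi (Pair 2) (Function.support fun g => freeEnergy 2 β g - 2 * Real.log 2) = 0 :=
      nonpos_iff_eq_zero.1 (not_lt.1 hcon)
    have h1 : {g : Pair 2 → ℝ | g pair2 ≠ 0} ⊆
        Function.support fun g => freeEnergy 2 β g - 2 * Real.log 2 := by
      intro g hg
      rw [Function.mem_support]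
      have huniq : ∀ p : Pair 2, p = pair2 := by
        intro p
        obtain ⟨⟨i, j⟩, hij⟩ := p
        unfold pair2
        congr 1
        have hij' : i < j := hij
        have : i = 0 ∧ j = 1 := by omega
        rw [this.1, this.2]
      have h2 : β * hamiltonian 2 g 1 ≠ 0 := by
        unfold hamiltonian
        rw [Finset.sum_eq_single pair2 (fun p _ hp => absurd (huniq p) hp)
          (fun h => absurd (Finset.mem_univ _) h)]
        simp only [Pi.one_apply, Units.val_one, Int.cast_one, mul_one]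
        refine mul_ne_zero hβ (mul_ne_zero ?_ hg)
        positivity
      have h3 := freeEnergy_zero_lt h2
      rw [freeEnergy_zero] at h3
      push_cast at h3
      linarith
    have h2 := measure_mono_null h1 h0
    have h3 : gpi (Pair 2) {g : Pair 2 → ℝ | g pair2 = 0} = 0 := by
      have h4 := measurePreserving_eval (fun _ : Pair 2 => gaussianReal 0 1) pair2
      have h5 := h4.measure_preimage (s := {0}) (measurableSet_singleton 0).nullMeasurableSet
      have h6 : (gaussianReal 0 1) {(0 : ℝ)} = 0 := by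
        have := nullSingletonClass_gaussianReal (μ := 0) (v := 1) one_ne_zero
        exact measure_singleton 0
      rw [h6] at h5
      exact h5
    have h7 : gpi (Pair 2) Set.univ = 0 := by
      have : (Set.univ : Set (Pair 2 → ℝ)) ⊆
          {g | g pair2 ≠ 0} ∪ {g | g pair2 = 0} := fun g _ => by
        by_cases h : g pair2 = 0
        · exact Or.inr h
        · exact Or.inl h
      exact measure_mono_null this (measure_union_null h2 h3)
    rw [measure_univ] at h7
    exact one_ne_zero h7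
  rw [int_sub hd (Dom.const _)] at hpos
  simp only [integral_const, probReal_univ, smul_eq_mul, one_mul] at hpos
  have h8 : ∫ g, freeEnergy 2 β g ∂(disorder 2) = ∫ g, freeEnergy 2 β g ∂(gpi (Pair 2)) := rfl
  rw [h8]
  linarith

/-- `p > log 2` for every `p` with `E F_2 ≤ 2 p` -/
theorem log_two_lt (hβ : β ≠ 0) {p : ℝ} (h : ∫ g, freeEnergy 2 β g ∂(disorder 2) ≤ 2 * p) :
    Real.log 2 < p := by
  have := two_log_two_lt hβ
  linarith

end Vale.Agent.P146.R2.H952
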