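import Vale.Agent.P146.R2.H952.Lower

/-!
# P146: the sharp first order lower bound at and below the critical temperature

`E F_n(β) ≥ n log 2 + β² (n-1)/4 - O(√n)` for `β < 1` by the second moment method; with
convexity this gives `β (1 - R_β(1)) ≥ 1 - 7 n^(-1/5)` for every `β ≥ 1` and every `n`.
-/

open MeasureTheory ProbabilityTheory

namespace Vale.Agent.P146.R2.H952

open Vale.Agent.P146 Vale.Agent.P146.Ub.Cv Vale.Agent.P146.H605 Vale.Agent.P146.R2
  Vale.Agent.P146.R2.H749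

section abs

variable {Ω : Type*} [MeasurableSpace Ω] {μ : Measure Ω} [IsProbabilityMeasure μ]

/-- the second moment method for the mean of a logarithm -/
theorem log_second_moment {F : Ω → ℝ} (hF : Integrable F μ)
    (hF2 : Integrable (fun w => F w ^ 2) μ)
    (h1 : Integrable (fun w => Real.exp (F w)) μ)
    (h2 : Integrable (fun w => Real.exp (F w) ^ 2) μ)
    {K V : ℝ} (hK : 0 < K) (hV : 0 < V)
    (hM : ∫ w, Real.exp (F w) ^ 2 ∂μ ≤ K * (∫ w, Real.exp (F w) ∂μ) ^ 2)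
    (hVar : ∫ w, F w ^ 2 ∂μ - (∫ w, F w ∂μ) ^ 2 ≤ V) :
    Real.log (∫ w, Real.exp (F w) ∂μ) - Real.log 2 - 2 * Real.sqrt (K * V) ≤
      ∫ w, F w ∂μ := by
  obtain ⟨M, hMd⟩ : ∃ M, M = ∫ w, Real.exp (F w) ∂μ := ⟨_, rfl⟩
  obtain ⟨m, hm⟩ : ∃ m, m = ∫ w, F w ∂μ := ⟨_, rfl⟩
  have hM0 : 0 < M := by rw [hMd]; exact integral_exp_pos h1
  obtain ⟨r, hr⟩ : ∃ r, r = Real.sqrt (K * V) := ⟨_, rfl⟩
  have hKV : 0 < r := by rw [hr]; exact Real.sqrt_pos.2 (mul_pos hK hV)
  have hrsq : r * r = K * V := by rw [hr]; exact Real.mul_self_sqrt (mul_pos hK hV).le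
  obtain ⟨a, ha⟩ : ∃ a, a = r / (K * M) := ⟨_, rfl⟩
  have ha0 : 0 < a := by rw [ha]; positivity
  rw [← hMd] at hM
  rw [← hm] at hVar
  rw [← hMd, ← hm, ← hr]
  have pt : ∀ w, Real.exp (F w) ≤ Real.exp (m + 2 * r) +
      1 / (4 * r) * (a * Real.exp (F w) ^ 2 + 1 / a * (F w - m) ^ 2) := by
    intro w
    have hx : 0 < Real.exp (F w) := Real.exp_pos _
    rcases le_or_gt (F w) (m + 2 * r) with h | h
    · have h3 : Real.exp (F w) ≤ Real.exp (m + 2 * r) := Real.exp_le_exp.2 h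
      have h4 : 0 ≤ 1 / (4 * r) * (a * Real.exp (F w) ^ 2 + 1 / a * (F w - m) ^ 2) := by
        positivity
      linarith
    · have h3 : 2 * r ≤ F w - m := by linarith
      have h4 : Real.exp (F w) * (2 * r) ≤ Real.exp (F w) * (F w - m) :=
        mul_le_mul_of_nonneg_left h3 hx.le
      have h5 : 2 * (Real.exp (F w) * (F w - m)) ≤
          a * Real.exp (F w) ^ 2 + 1 / a * (F w - m) ^ 2 := by
        have h6 : 0 ≤ (a * Real.exp (F w) - (F w - m)) ^ 2 := sq_nonneg _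
        have h7 : a * Real.exp (F w) ^ 2 + 1 / a * (F w - m) ^ 2 =
            (a ^ 2 * Real.exp (F w) ^ 2 + (F w - m) ^ 2) / a := by
          field_simp
        rw [h7, le_div_iff₀ ha0]
        nlinarith
      have h8 : 1 / (4 * r) * (4 * r * Real.exp (F w)) ≤
          1 / (4 * r) * (a * Real.exp (F w) ^ 2 + 1 / a * (F w - m) ^ 2) :=
        mul_le_mul_of_nonneg_left (by linarith) (by positivity)
      have h9 : 1 / (4 * r) * (4 * r * Real.exp (F w)) = Real.exp (F w) := by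
        field_simp
      have h10 := Real.exp_pos (m + 2 * r)
      linarith
  have i3 : Integrable (fun w => (F w - m) ^ 2) μ := by
    have e : (fun w => (F w - m) ^ 2) = fun w => F w ^ 2 - 2 * m * F w + m ^ 2 := by
      funext w; ring
    rw [e]
    exact (hF2.sub (hF.const_mul _)).add (integrable_const _)
  have v3 : ∫ w, (F w - m) ^ 2 ∂μ ≤ V := by
    have e : (fun w => (F w - m) ^ 2) = fun w => (F w ^ 2 - 2 * m * F w) + m ^ 2 := by
      funext w; ring
    have i4 : Integrable (fun w => F w ^ 2 - 2 * m * F w) μ := hF2.sub (hF.const_mul _)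
    rw [e, integral_add i4 (integrable_const _),
      integral_sub hF2 (hF.const_mul _), integral_const_mul, ← hm]
    simp only [integral_const, probReal_univ, one_smul]
    linarith
  have i5 : Integrable (fun w => a * Real.exp (F w) ^ 2 + 1 / a * (F w - m) ^ 2) μ :=
    (h2.const_mul a).add (i3.const_mul (1 / a))
  have i6 : Integrable (fun w => 1 / (4 * r) *
      (a * Real.exp (F w) ^ 2 + 1 / a * (F w - m) ^ 2)) μ := i5.const_mul _
  have i7 : Integrable (fun w => Real.exp (m + 2 * r) + 1 / (4 * r) *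
      (a * Real.exp (F w) ^ 2 + 1 / a * (F w - m) ^ 2)) μ := (integrable_const _).add i6
  have hi := integral_mono h1 i7 pt
  have e1 : ∫ w, (Real.exp (m + 2 * r) +
      1 / (4 * r) * (a * Real.exp (F w) ^ 2 + 1 / a * (F w - m) ^ 2)) ∂μ =
      Real.exp (m + 2 * r) + 1 / (4 * r) * (a * ∫ w, Real.exp (F w) ^ 2 ∂μ +
        1 / a * ∫ w, (F w - m) ^ 2 ∂μ) := by
    rw [integral_add (integrable_const _) i6,
      integral_const_mul, integral_add (h2.const_mul a) (i3.const_mul (1 / a)),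
      integral_const_mul, integral_const_mul]
    simp
  have hi2 : M ≤ Real.exp (m + 2 * r) + 1 / (4 * r) * (a * ∫ w, Real.exp (F w) ^ 2 ∂μ +
        1 / a * ∫ w, (F w - m) ^ 2 ∂μ) := by
    rw [← e1, hMd]
    exact hi
  have h5 : a * ∫ w, Real.exp (F w) ^ 2 ∂μ ≤ r * M := by
    refine (mul_le_mul_of_nonneg_left hM ha0.le).trans (le_of_eq ?_)
    rw [ha]
    field_simp
  have h6 : 1 / a * ∫ w, (F w - m) ^ 2 ∂μ ≤ r * M := by
    refine (mul_le_mul_of_nonneg_left v3 (by positivity)).trans (le_of_eq ?_)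
    rw [ha]
    have : 1 / (r / (K * M)) * V = (K * V) * M / r := by field_simp
    rw [this, ← hrsq]
    field_simp
  have h7 : 1 / (4 * r) * (a * ∫ w, Real.exp (F w) ^ 2 ∂μ +
      1 / a * ∫ w, (F w - m) ^ 2 ∂μ) ≤ 1 / (4 * r) * (2 * (r * M)) :=
    mul_le_mul_of_nonneg_left (by linarith) (by positivity)
  have h8 : 1 / (4 * r) * (2 * (r * M)) = M / 2 := by
    field_simp
    norm_num
  have h9 : M / 2 ≤ Real.exp (m + 2 * r) := by linarith
  have h10 := Real.log_le_log (by positivity) h9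
  rw [Real.log_exp, Real.log_div hM0.ne' two_ne_zero] at h10
  linarith

end abs

section gauss

lemma integral_exp_sq {l : ℝ} (hl : l < 1 / 2) :
    ∫ x, Real.exp (l * x ^ 2) ∂(gaussianReal 0 1) = 1 / Real.sqrt (1 - 2 * l) := by
  rw [integral_gaussianReal_eq_integral_smul one_ne_zero]
  have h1 : ∀ x : ℝ, gaussianPDFReal 0 1 x • Real.exp (l * x ^ 2) =
      (Real.sqrt (2 * Real.pi))⁻¹ * Real.exp (-(1 / 2 - l) * x ^ 2) := by
    intro x
    rw [gaussianPDFReal_def, smul_eq_mul, mul_assoc, ← Real.exp_add]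
    simp only [NNReal.coe_one, mul_one, sub_zero]
    congr 2
    ring
  simp only [h1]
  have h2 : 0 < 1 / 2 - l := by linarith
  have h3 : 0 < 1 - 2 * l := by linarith
  have e0 : 1 / Real.sqrt (1 - 2 * l) = Real.sqrt ((1 - 2 * l)⁻¹) := by
    rw [Real.sqrt_inv, one_div]
  rw [e0, integral_const_mul, integral_gaussian, ← Real.sqrt_inv,
    ← Real.sqrt_mul (by positivity)]
  congr 1
  have h4 : (1 : ℝ) / 2 - l ≠ 0 := h2.ne'
  have h5 := h3.ne'
  have h6 := Real.pi_ne_zero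
  have e : 1 - 2 * l = 2 * (1 / 2 - l) := by ring
  rw [e]
  field_simp

lemma integrable_exp_sq {l : ℝ} (hl : l < 1 / 2) :
    Integrable (fun x : ℝ => Real.exp (l * x ^ 2)) (gaussianReal 0 1) := by
  by_contra h
  have h1 := integral_undef h
  rw [integral_exp_sq hl] at h1
  have h2 : 0 < Real.sqrt (1 - 2 * l) := Real.sqrt_pos.2 (by linarith)
  have h3 : 0 < 1 / Real.sqrt (1 - 2 * l) := by positivity
  linarith

end gauss

section sk

variable (n : ℕ) (β : ℝ)

/-- The exponential moment of the squared overlap of two uniform configurations. -/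
theorem rad_sq_gen (hn : 1 ≤ n) {l : ℝ} (hl0 : 0 ≤ l) (hl : l < 1 / 2) :
    ∑ σ : Fin n → ℤˣ, ∑ τ : Fin n → ℤˣ, Real.exp (l * ww n σ τ) ≤
      1 / Real.sqrt (1 - 2 * l) * 4 ^ n := by
  have hn0 : (0 : ℝ) < n := by exact_mod_cast hn
  obtain ⟨c, hc⟩ : ∃ c, c = Real.sqrt (2 * l / n) := ⟨_, rfl⟩
  have hcsq : c ^ 2 = 2 * l / n := by rw [hc]; exact Real.sq_sqrt (by positivity)
  -- each term is a Gaussian integral
  have h1 : ∀ σ τ : Fin n → ℤˣ, Real.exp (l * ww n σ τ) =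
      ∫ x, Real.exp ((∑ i, ((σ i : ℤ) : ℝ) * ((τ i : ℤ) : ℝ)) * c * x)
        ∂(gaussianReal 0 1) := by
    intro σ τ
    have h := congrFun (mgf_id_gaussianReal (μ := 0) (v := 1))
      ((∑ i, ((σ i : ℤ) : ℝ) * ((τ i : ℤ) : ℝ)) * c)
    unfold mgf at h
    simp only [id] at h
    rw [h]
    congr 1
    unfold ww overlap
    rw [mul_pow, hcsq, div_pow]
    simp only [NNReal.coe_one]
    field_simp
    ring
  have hint : ∀ σ τ : Fin n → ℤˣ, Integrable (fun x =>
      Real.exp ((∑ i, ((σ i : ℤ) : ℝ) * ((τ i : ℤ) : ℝ)) * c * x))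
        (gaussianReal 0 1) := fun σ τ => integrable_exp_mul_gaussianReal _
  rw [Finset.sum_comm]
  have h2 : ∀ τ : Fin n → ℤˣ,
      ∑ σ : Fin n → ℤˣ, Real.exp (l * ww n σ τ) ≤ 2 ^ n * (1 / Real.sqrt (1 - 2 * l)) := by
    intro τ
    simp only [h1]
    rw [← integral_finsetSum _ fun σ _ => hint σ τ]
    rw [← integral_exp_sq hl, ← integral_const_mul]
    refine integral_mono (integrable_finsetSum _ fun σ _ => hint σ τ)
      ((integrable_exp_sq hl).const_mul _) fun x => ?_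
    have h3 : ∀ σ : Fin n → ℤˣ,
        Real.exp ((∑ i, ((σ i : ℤ) : ℝ) * ((τ i : ℤ) : ℝ)) * c * x) =
        Real.exp ((c * x) * ∑ i, ((σ i : ℤ) : ℝ) * ((τ i : ℤ) : ℝ)) := by
      intro σ
      congr 1
      ring
    simp only [h3]
    rw [Gauge.sum_exp_spin, mul_pow]
    gcongr
    calc Real.cosh (c * x) ^ n
        ≤ Real.exp ((c * x) ^ 2 / 2) ^ n := by
          gcongr
          exact Real.cosh_le_exp_half_sq _
      _ = Real.exp (l * x ^ 2) := by
          rw [← Real.exp_nat_mul]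
          congr 1
          rw [mul_pow, hcsq]
          field_simp
  calc ∑ τ : Fin n → ℤˣ, ∑ σ : Fin n → ℤˣ, Real.exp (l * ww n σ τ)
      ≤ ∑ _τ : Fin n → ℤˣ, 2 ^ n * (1 / Real.sqrt (1 - 2 * l)) :=
        Finset.sum_le_sum fun τ _ => h2 τ
    _ = 1 / Real.sqrt (1 - 2 * l) * 4 ^ n := by
        rw [Finset.sum_const, Finset.card_univ, nsmul_eq_mul]
        have : ((Fintype.card (Fin n → ℤˣ) : ℕ) : ℝ) = 2 ^ n := by
          simp [Fintype.card_units_int]
        rw [this]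
        have h4 : (4 : ℝ) ^ n = 2 ^ n * 2 ^ n := by
          rw [← mul_pow]
          norm_num
        rw [h4]
        ring

lemma ww_self (hn : 1 ≤ n) (σ : Fin n → ℤˣ) : ww n σ σ = n := by
  have hn0 : (0 : ℝ) < n := by exact_mod_cast hn
  unfold ww overlap
  have h : ∑ i, ((σ i : ℤ) : ℝ) * ((σ i : ℤ) : ℝ) = n := by
    rw [Finset.sum_congr rfl fun i _ => Gauge.unit_cast_sq (σ i)]
    simp
  rw [h]
  field_simp

lemma ska_sq (hn : 1 ≤ n) (σ : Fin n → ℤˣ) :
    ∑ p, ska n β σ p ^ 2 = β ^ 2 / 2 * (n - 1) := by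
  have h := ska_inner n β hn σ σ
  rw [ww_self n hn] at h
  rw [← h]
  exact Finset.sum_congr rfl fun p _ => sq _

lemma partition_sum (g : Pair n → ℝ) :
    partitionFn n β g = ∑ σ, Real.exp (∑ p, ska n β σ p * g p) := by
  rw [partitionFn_eq]
  unfold zz wt
  simp only [add_zero]

lemma exp_free (g : Pair n → ℝ) : Real.exp (freeEnergy n β g) = partitionFn n β g :=
  Real.exp_log (Gauge.partitionFn_pos β g)

lemma int_exp (v : Pair n → ℝ) :
    Integrable (fun g => Real.exp (∑ p, v p * g p)) (disorder n) ∧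
      ∫ g, Real.exp (∑ p, v p * g p) ∂(disorder n) = Real.exp ((∑ p, v p ^ 2) / 2) :=
  Vale.Agent.P157.Par.exp_lin_gM v

lemma card_spin : ((Fintype.card (Fin n → ℤˣ) : ℕ) : ℝ) = 2 ^ n := by
  simp [Fintype.card_units_int]

lemma mean_Z (hn : 1 ≤ n) : ∫ g, Real.exp (freeEnergy n β g) ∂(disorder n) =
    2 ^ n * Real.exp (β ^ 2 / 4 * (n - 1)) := by
  simp_rw [exp_free, partition_sum]
  rw [integral_finsetSum _ fun σ _ => (int_exp n _).1]
  simp_rw [(int_exp n _).2, ska_sq n β hn]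
  rw [Finset.sum_const, Finset.card_univ, nsmul_eq_mul, card_spin]
  congr 2
  ring

lemma sq_Z (g : Pair n → ℝ) : Real.exp (freeEnergy n β g) ^ 2 =
    ∑ σ, ∑ τ, Real.exp (∑ p, (ska n β σ p + ska n β τ p) * g p) := by
  rw [exp_free, partition_sum, sq, Finset.sum_mul_sum]
  refine Finset.sum_congr rfl fun σ _ => Finset.sum_congr rfl fun τ _ => ?_
  rw [← Real.exp_add, ← Finset.sum_add_distrib]
  congr 1
  exact Finset.sum_congr rfl fun p _ => by ring

lemma second_Z (hn : 1 ≤ n) (hβ : β ^ 2 < 1) :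
    ∫ g, Real.exp (freeEnergy n β g) ^ 2 ∂(disorder n) ≤
      1 / Real.sqrt (1 - β ^ 2) * (∫ g, Real.exp (freeEnergy n β g) ∂(disorder n)) ^ 2 := by
  rw [mean_Z n β hn]
  simp_rw [sq_Z]
  rw [integral_finsetSum _ fun σ _ => integrable_finsetSum _ fun τ _ => (int_exp n _).1]
  have e1 : ∀ σ τ : Fin n → ℤˣ, ∫ g, Real.exp (∑ p, (ska n β σ p + ska n β τ p) * g p)
      ∂(disorder n) ≤ Real.exp (β ^ 2 / 2 * (n - 1)) * Real.exp (β ^ 2 / 2 * ww n σ τ) := by
    intro σ τ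
    rw [(int_exp n _).2, ← Real.exp_add, Real.exp_le_exp]
    have e2 : ∑ p, (ska n β σ p + ska n β τ p) ^ 2 =
        ∑ p, ska n β σ p ^ 2 + ∑ p, ska n β τ p ^ 2 + 2 * ∑ p, ska n β σ p * ska n β τ p := by
      rw [Finset.mul_sum, ← Finset.sum_add_distrib, ← Finset.sum_add_distrib]
      exact Finset.sum_congr rfl fun p _ => by ring
    rw [e2, ska_sq n β hn, ska_sq n β hn, ska_inner n β hn]
    nlinarith [sq_nonneg β]
  have e3 : ∑ σ : Fin n → ℤˣ, ∫ g, ∑ τ : Fin n → ℤˣ,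
      Real.exp (∑ p, (ska n β σ p + ska n β τ p) * g p) ∂(disorder n) ≤
      Real.exp (β ^ 2 / 2 * (n - 1)) *
        ∑ σ : Fin n → ℤˣ, ∑ τ : Fin n → ℤˣ, Real.exp (β ^ 2 / 2 * ww n σ τ) := by
    rw [Finset.mul_sum]
    refine Finset.sum_le_sum fun σ _ => ?_
    rw [integral_finsetSum _ fun τ _ => (int_exp n _).1, Finset.mul_sum]
    exact Finset.sum_le_sum fun τ _ => e1 σ τ
  refine e3.trans ?_
  have h4 := rad_sq_gen n hn (l := β ^ 2 / 2) (by positivity) (by linarith)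
  have e5 : 1 - 2 * (β ^ 2 / 2) = 1 - β ^ 2 := by ring
  rw [e5] at h4
  refine (mul_le_mul_of_nonneg_left h4 (Real.exp_pos _).le).trans (le_of_eq ?_)
  have e6 : Real.exp (β ^ 2 / 4 * (n - 1)) ^ 2 = Real.exp (β ^ 2 / 2 * (n - 1)) := by
    rw [← Real.exp_nat_mul]
    congr 1
    push_cast
    ring
  have e7 : ((2 : ℝ) ^ n) ^ 2 = 4 ^ n := by
    rw [← pow_mul, mul_comm, pow_mul]
    norm_num
  rw [mul_pow, e6, e7]
  ring

lemma QQ_at_one {ι : Type*} [Fintype ι] (f : (ι → ℝ) → ℝ) :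
    QQ f 1 = ∫ x, f x ^ 2 ∂(gpi ι) := by
  unfold QQ
  have e : ∀ z y : ι → ℝ, mix (Real.sqrt 1) (Real.sqrt (1 - 1)) z y = z := by
    intro z y
    funext i
    simp [mix]
  simp_rw [e]
  simp

lemma prof_one_le (hn : 1 ≤ n) : prof n β 1 ≤ β ^ 2 * n / 2 := by
  have hr := reg_freeEnergy n β
  rw [prof_QQ n β hn zero_le_one le_rfl]
  simp_rw [QQ_at_one]
  rw [← int_sum _ fun p _ => (hr.G_dom p).pow 2]
  have h := integral_mono (μ := gpi (Pair n))
    (Dom.sum Finset.univ fun p _ => (hr.G_dom p).pow 2).integrable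
    (integrable_const (β ^ 2 * n / 2)) fun g => sum_gradF_sq n β g
  simpa using h

lemma var_le_lin (hn : 1 ≤ n) : Var[freeEnergy n β; disorder n] ≤ β ^ 2 * n / 2 := by
  rw [← crossCov_one n β hn, crossCov_formula n β hn zero_le_one le_rfl]
  have h2 : ∫ a in (0 : ℝ)..1, prof n β a ≤ ∫ _a in (0 : ℝ)..1, β ^ 2 * n / 2 := by
    refine intervalIntegral.integral_mono_on zero_le_one
      (prof_intervalIntegrable n β hn le_rfl zero_le_one le_rfl) (by simp) fun a ha => ?_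
    exact (prof_mono n β hn ha.1 ha.2 le_rfl).trans (prof_one_le n β hn)
  simpa using h2

theorem mean_upper (hn : 1 ≤ n) : ∫ g, freeEnergy n β g ∂(disorder n) ≤
    n * Real.log 2 + β ^ 2 / 4 * (n - 1) := by
  have hM := mean_Z n β hn
  obtain ⟨M, hMd⟩ : ∃ M : ℝ, M = 2 ^ n * Real.exp (β ^ 2 / 4 * (n - 1)) := ⟨_, rfl⟩
  have hM0 : 0 < M := by rw [hMd]; positivity
  have hlog : Real.log M = n * Real.log 2 + β ^ 2 / 4 * (n - 1) := by
    rw [hMd, Real.log_mul (by positivity) (Real.exp_pos _).ne', Real.log_pow, Real.log_exp]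
  have lF := lin_freeEnergy n β
  rw [← hlog]
  have pt : ∀ g, freeEnergy n β g ≤ (Real.log M - 1) + 1 / M * Real.exp (freeEnergy n β g) := by
    intro g
    have h := Real.add_one_le_exp (freeEnergy n β g - Real.log M)
    rw [Real.exp_sub, Real.exp_log hM0] at h
    have e : 1 / M * Real.exp (freeEnergy n β g) = Real.exp (freeEnergy n β g) / M := by ring
    rw [e]
    linarith
  have i1 : Integrable (fun g => 1 / M * Real.exp (freeEnergy n β g)) (disorder n) :=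
    (lF.dom_exp.integrable).const_mul _
  have : IsProbabilityMeasure (disorder n) := by
    rw [disorder_eq]; infer_instance
  have i2 : Integrable (fun g => (Real.log M - 1) + 1 / M * Real.exp (freeEnergy n β g))
      (disorder n) := (integrable_const _).add i1
  have h := integral_mono (μ := disorder n) lF.dom.integrable i2 pt
  have e : ∫ g, ((Real.log M - 1) + 1 / M * Real.exp (freeEnergy n β g))
      ∂(disorder n) = (Real.log M - 1) + 1 / M * M := by
    rw [integral_add (integrable_const _) i1, integral_const_mul, hM, ← hMd]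
    simp
  have e2 : 1 / M * M = 1 := by field_simp
  rw [e2] at e
  have h' := h.trans (le_of_eq e)
  linarith

theorem mean_lower (hn : 1 ≤ n) (hβ : β ^ 2 < 1) {K : ℝ}
    (hK : 1 / Real.sqrt (1 - β ^ 2) ≤ K) :
    n * Real.log 2 + β ^ 2 / 4 * (n - 1) - Real.log 2 - 2 * Real.sqrt (K * (n / 2)) ≤
      ∫ g, freeEnergy n β g ∂(disorder n) := by
  have hn0 : (0 : ℝ) < n := by exact_mod_cast hn
  have : IsProbabilityMeasure (disorder n) := by
    rw [disorder_eq]; infer_instance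
  have hM := mean_Z n β hn
  have lF := lin_freeEnergy n β
  have h1 : 0 < Real.sqrt (1 - β ^ 2) := Real.sqrt_pos.2 (by linarith)
  have hK0 : 0 < K := lt_of_lt_of_le (by positivity) hK
  have hV := var_le_lin n β hn
  rw [var_eq] at hV
  have hV2 : ∫ g, freeEnergy n β g ^ 2 ∂(disorder n) -
      (∫ g, freeEnergy n β g ∂(disorder n)) ^ 2 ≤ n / 2 := by
    rw [disorder_eq]
    refine hV.trans ?_
    have h3 : β ^ 2 * n ≤ 1 * n := mul_le_mul_of_nonneg_right hβ.le hn0.le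
    linarith
  have h2 := second_Z n β hn hβ
  have h3 : ∫ g, Real.exp (freeEnergy n β g) ^ 2 ∂(disorder n) ≤
      K * (∫ g, Real.exp (freeEnergy n β g) ∂(disorder n)) ^ 2 :=
    h2.trans (mul_le_mul_of_nonneg_right hK (sq_nonneg _))
  have h4 := log_second_moment (μ := disorder n) (F := freeEnergy n β) lF.dom.integrable
    (lF.dom.pow 2).integrable lF.dom_exp.integrable (lF.dom_exp.pow 2).integrable hK0
    (V := n / 2) (by positivity) h3 hV2
  rw [hM, Real.log_mul (by positivity) (Real.exp_pos _).ne', Real.log_pow, Real.log_exp] at h4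
  exact h4

/-- **The energy at and below the critical temperature.** -/
theorem energy_ge (hn : 1 ≤ n) (hβ : 1 ≤ β) {D : ℝ} (hD : 14 ≤ D) (hDn : D ^ 5 = n) :
    1 - 7 / D ≤ β * (1 - crossOverlap n β 1) := by
  have hD0 : 0 < D := by linarith
  have hn0 : (0 : ℝ) < n := by exact_mod_cast hn
  obtain ⟨y, hy⟩ : ∃ y, y = 1 / D := ⟨_, rfl⟩
  have hyD : y * D = 1 := by rw [hy]; field_simp
  have hy0 : 0 < y := by rw [hy]; positivity
  have hy1 : y ≤ 1 / 14 := by
    rw [hy]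
    exact one_div_le_one_div_of_le (by norm_num) hD
  have hb0 : 0 < 1 - y := by linarith
  have hbsq : (1 - y) ^ 2 < 1 := by nlinarith
  have hK : 1 / Real.sqrt (1 - (1 - y) ^ 2) ≤ D := by
    have h1 : y ≤ 1 - (1 - y) ^ 2 := by nlinarith
    have h2 : 1 - (1 - y) ^ 2 ≤ 1 := by nlinarith
    have h3 : 1 - (1 - y) ^ 2 ≤ Real.sqrt (1 - (1 - y) ^ 2) :=
      Real.le_sqrt_of_sq_le (by nlinarith)
    have h4 : y ≤ Real.sqrt (1 - (1 - y) ^ 2) := h1.trans h3
    have h5 : 1 / Real.sqrt (1 - (1 - y) ^ 2) ≤ 1 / y := one_div_le_one_div_of_le hy0 h4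
    have h6 : 1 / y = D := by rw [hy]; field_simp
    rwa [h6] at h5
  have h1 := mean_lower n (1 - y) hn hbsq hK
  have h2 := mean_upper n (1 - 2 * y) hn
  have h3 := mean_tangent n (1 - y) hn hb0 (1 - 2 * y)
  have h4 := energy_mono n β hn hb0 (by linarith)
  refine le_trans ?_ h4
  obtain ⟨U, hU⟩ : ∃ U, U = (1 - y) * (1 - crossOverlap n (1 - y) 1) := ⟨_, rfl⟩
  rw [← hU]
  have hs : Real.sqrt (D * (n / 2)) ≤ 3 / 4 * D ^ 3 := by
    rw [Real.sqrt_le_left (by positivity), ← hDn]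
    have : 0 ≤ D ^ 6 := by positivity
    nlinarith
  have hl2 : Real.log 2 ≤ 0.7 := by
    have := Real.log_two_lt_d9
    linarith
  have e3 : (1 - 2 * y - (1 - y)) * ((1 - y) * n / 2) * (1 - crossOverlap n (1 - y) 1) =
      -(y * n / 2 * U) := by
    rw [hU]; ring
  rw [e3] at h3
  have h5 : (2 * y - 3 * y ^ 2) * (n - 1) / 4 - 0.7 - 3 / 2 * D ^ 3 ≤ y * n / 2 * U := by
    have e : (2 * y - 3 * y ^ 2) * ((n : ℝ) - 1) / 4 =
        (1 - y) ^ 2 / 4 * (n - 1) - (1 - 2 * y) ^ 2 / 4 * (n - 1) := by ring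
    rw [e]
    linarith
  rw [← hDn] at h5
  have e6 : y * D ^ 5 = D ^ 4 := by
    have : y * D ^ 5 = (y * D) * D ^ 4 := by ring
    rw [this, hyD, one_mul]
  have e7 : y ^ 2 * D ^ 5 = D ^ 3 := by
    have : y ^ 2 * D ^ 5 = (y * D) ^ 2 * D ^ 3 := by ring
    rw [this, hyD]; ring
  have e8 : (2 * y - 3 * y ^ 2) * (D ^ 5 - 1) = 2 * D ^ 4 - 3 * D ^ 3 - 2 * y + 3 * y ^ 2 := by
    have : (2 * y - 3 * y ^ 2) * (D ^ 5 - 1) =
        2 * (y * D ^ 5) - 3 * (y ^ 2 * D ^ 5) - 2 * y + 3 * y ^ 2 := by ring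
    rw [this, e6, e7]
  rw [e8, e6] at h5
  have h9 : D ^ 4 / 2 * (1 - 7 / D) ≤ D ^ 4 / 2 * U := by
    have e9 : D ^ 4 / 2 * (1 - 7 / D) = D ^ 4 / 2 - 7 / 2 * D ^ 3 := by
      field_simp
    rw [e9]
    have h10 : (1 : ℝ) ≤ D ^ 3 := by
      have : (1 : ℝ) ^ 3 ≤ D ^ 3 := pow_le_pow_left₀ zero_le_one (by linarith) 3
      linarith
    have h11 : 0 ≤ y ^ 2 := sq_nonneg y
    linarith
  exact le_of_mul_le_mul_left h9 (by positivity)

/-- **The sharp first order lower bound for the overlap of correlated copies**: for every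
`β ≥ 1`, every `n ≥ 1` and every correlation `t`. -/
theorem overlap_sharp (hn : 1 ≤ n) (hβ : 1 ≤ β) {t : ℝ} (h0 : 0 ≤ t) (h1 : t ≤ 1) :
    1 + (1 - 14 * (n : ℝ) ^ (-(1 / 5) : ℝ)) * t ≤ n * crossOverlap n β t := by
  have hn0 : (0 : ℝ) < n := by exact_mod_cast hn
  have hl := overlap_lower n β hn (by linarith) h0 h1
  obtain ⟨D, hD⟩ : ∃ D : ℝ, D = (n : ℝ) ^ (1 / 5 : ℝ) := ⟨_, rfl⟩
  have hD0 : 0 < D := by rw [hD]; positivity
  have hDn : D ^ 5 = n := by
    rw [hD, ← Real.rpow_natCast, ← Real.rpow_mul hn0.le]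
    norm_num
  have hDi : (n : ℝ) ^ (-(1 / 5) : ℝ) = 1 / D := by
    rw [Real.rpow_neg hn0.le, ← hD, one_div]
  rw [hDi]
  have hsq : 0 ≤ (β * (1 - crossOverlap n β 1)) ^ 2 := sq_nonneg _
  rcases le_or_gt 14 D with h14 | h14
  · have h2 := energy_ge n β hn hβ h14 hDn
    have h3 : 0 ≤ 1 - 7 / D := by
      have : 7 / D ≤ 1 := by
        rw [div_le_one hD0]
        linarith
      linarith
    have h4 := pow_le_pow_left₀ h3 h2 2
    have h5 : 1 - 14 * (1 / D) ≤ (1 - 7 / D) ^ 2 := by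
      have e : (1 - 7 / D) ^ 2 = 1 - 14 * (1 / D) + (7 / D) ^ 2 := by ring
      rw [e]
      have := sq_nonneg (7 / D)
      linarith
    have h6 := mul_le_mul_of_nonneg_right (h5.trans h4) h0
    linarith
  · have h2 : 1 - 14 * (1 / D) ≤ 0 := by
      have : 1 ≤ 14 * (1 / D) := by
        rw [mul_one_div, le_div_iff₀ hD0]
        linarith
      linarith
    have h3 := mul_nonpos_of_nonpos_of_nonneg h2 h0
    have h4 := mul_nonneg h0 hsq
    linarith

/-- **The sharp lower bound for the covariance of correlated copies.** -/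
theorem crossCov_sharp (hn : 1 ≤ n) (hβ : 1 ≤ β) {t : ℝ} (h0 : 0 ≤ t) (h1 : t ≤ 1) :
    β ^ 2 / 4 * (1 - 14 * (n : ℝ) ^ (-(1 / 5) : ℝ)) * t ^ 2 ≤ crossCov n β t :=
  crossCov_lower_of n β hn h0 h1 fun _ hs0 hs1 => overlap_sharp n β hn hβ hs0 hs1

end sk

end Vale.Agent.P146.R2.H952
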