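import Vale.Agent.P146.R2.H729.TrDef

/-!
# P146: the derivative of `z ↦ U_k (W(z))`
-/

open Matrix Finset

namespace Vale.Agent.P146.R2.H952.Tr

open Vale.Agent.P146.Sk Vale.Agent.P146.R2.H432

variable {N : ℕ}

/-- `∑_{a + b = k - 1} U_a(W) E U_b(W)`, the derivative of `U_k` at `W` in the direction `E` -/
def dcheb (k : ℕ) (W E : Matrix (Fin N) (Fin N) ℝ) : Matrix (Fin N) (Fin N) ℝ :=
  ∑ a ∈ range k, cheb a W * E * cheb (k - 1 - a) W

@[simp] lemma dcheb_zero (W E : Matrix (Fin N) (Fin N) ℝ) : dcheb 0 W E = 0 := by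
  simp [dcheb]

@[simp] lemma dcheb_one (W E : Matrix (Fin N) (Fin N) ℝ) : dcheb 1 W E = E := by
  simp [dcheb, cheb]

lemma mul_cheb_succ (W : Matrix (Fin N) (Fin N) ℝ) (a : ℕ) :
    W * cheb (a + 1) W = cheb (a + 2) W + cheb a W := by
  have : cheb (a + 2) W = W * cheb (a + 1) W - cheb a W := rfl
  rw [this]; abel

lemma dcheb_add_two (k : ℕ) (W E : Matrix (Fin N) (Fin N) ℝ) :
    dcheb (k + 2) W E = E * cheb (k + 1) W + W * dcheb (k + 1) W E - dcheb k W E := by
  have h1 : W * dcheb (k + 1) W E =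
      cheb 1 W * E * cheb k W +
        ∑ a ∈ range k, (cheb (a + 2) W + cheb a W) * E * cheb (k - 1 - a) W := by
    unfold dcheb
    rw [sum_range_succ', mul_add, mul_sum, add_comm]
    congr 1
    · simp only [cheb, Nat.add_sub_cancel, Nat.sub_zero, Matrix.one_mul, Matrix.mul_assoc]
    · refine sum_congr rfl fun a _ => ?_
      rw [← mul_cheb_succ]
      have : k + 1 - 1 - (a + 1) = k - 1 - a := by omega
      rw [this]
      simp only [Matrix.mul_assoc]
  have h2 : dcheb (k + 2) W E = E * cheb (k + 1) W + (cheb 1 W * E * cheb k W +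
      ∑ a ∈ range k, cheb (a + 2) W * E * cheb (k - 1 - a) W) := by
    unfold dcheb
    rw [sum_range_succ', sum_range_succ', add_comm, add_comm (∑ a ∈ range k, _)]
    congr 1
    · simp [cheb]
    · congr 1
      refine sum_congr rfl fun a _ => ?_
      have : k + 2 - 1 - (a + 1 + 1) = k - 1 - a := by omega
      rw [this]
  rw [h2, h1]
  unfold dcheb
  simp only [Matrix.add_mul, sum_add_distrib]
  abel

/-- `W(z)` is linear in `z` -/
noncomputable def WmL (N : ℕ) : (Ix N → ℝ) →ₗ[ℝ] Matrix (Fin N) (Fin N) ℝ where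
  toFun := Wm N
  map_add' x y := by
    ext i j
    simp only [Wm, Matrix.of_apply, Matrix.add_apply, Pi.add_apply]
    ring
  map_smul' c x := by
    ext i j
    simp only [Wm, Matrix.of_apply, Matrix.smul_apply, Pi.smul_apply, smul_eq_mul,
      RingHom.id_apply]
    ring

@[simp] lemma WmL_apply (z : Ix N → ℝ) : WmL N z = Wm N z := rfl

/-- the derivative as a linear map -/
noncomputable def dchL (k : ℕ) (W : Matrix (Fin N) (Fin N) ℝ) :
    (Ix N → ℝ) →ₗ[ℝ] Matrix (Fin N) (Fin N) ℝ where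
  toFun E := dcheb k W (Wm N E)
  map_add' x y := by
    have h : Wm N (x + y) = Wm N x + Wm N y := (WmL N).map_add x y
    rw [h]
    unfold dcheb
    simp only [Matrix.mul_add, Matrix.add_mul, sum_add_distrib]
  map_smul' c x := by
    have h : Wm N (c • x) = c • Wm N x := (WmL N).map_smul c x
    rw [h]
    unfold dcheb
    simp only [Matrix.mul_smul, Matrix.smul_mul, smul_sum, RingHom.id_apply]

@[simp] lemma dchL_apply (k : ℕ) (W : Matrix (Fin N) (Fin N) ℝ) (E : Ix N → ℝ) :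
    dchL k W E = dcheb k W (Wm N E) := rfl

/-- one entry of the derivative, as a continuous linear map -/
noncomputable def dchE (k : ℕ) (W : Matrix (Fin N) (Fin N) ℝ) (i j : Fin N) :
    (Ix N → ℝ) →L[ℝ] ℝ :=
  LinearMap.toContinuousLinearMap
    ((LinearMap.proj j : (Fin N → ℝ) →ₗ[ℝ] ℝ) ∘ₗ
      (LinearMap.proj i : (Fin N → Fin N → ℝ) →ₗ[ℝ] (Fin N → ℝ)) ∘ₗ (dchL k W))

@[simp] lemma dchE_apply (k : ℕ) (W : Matrix (Fin N) (Fin N) ℝ) (i j : Fin N)
    (E : Ix N → ℝ) : dchE k W i j E = dcheb k W (Wm N E) i j := rfl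

lemma hasFDerivAt_Wm (z : Ix N → ℝ) (i j : Fin N) :
    HasFDerivAt (fun z : Ix N → ℝ => Wm N z i j) (dchE 1 (Wm N z) i j) z := by
  have h : (fun z : Ix N → ℝ => Wm N z i j) = dchE 1 (Wm N z) i j := by
    funext E
    simp
  rw [h]
  exact (dchE 1 (Wm N z) i j).hasFDerivAt

/-- **The derivative of `U_k (W(z))`.** -/
theorem hasFDerivAt_cheb (k : ℕ) (z : Ix N → ℝ) : ∀ i j : Fin N,
    HasFDerivAt (fun z : Ix N → ℝ => cheb k (Wm N z) i j) (dchE k (Wm N z) i j) z := by
  induction k using Nat.strong_induction_on with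
  | _ k ih =>
    match k with
    | 0 =>
      intro i j
      have h : dchE 0 (Wm N z) i j = 0 := by
        ext E
        simp
      rw [h]
      exact hasFDerivAt_const _ _
    | 1 => exact fun i j => hasFDerivAt_Wm z i j
    | k + 2 =>
      intro i j
      have h1 : (fun z : Ix N → ℝ => cheb (k + 2) (Wm N z) i j) = fun z =>
          (∑ l, Wm N z i l * cheb (k + 1) (Wm N z) l j) - cheb k (Wm N z) i j := by
        funext z
        rfl
      rw [h1]
      have h2 := (HasFDerivAt.fun_sum fun l (_ : l ∈ (Finset.univ : Finset (Fin N))) =>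
        (hasFDerivAt_Wm z i l).mul (ih (k + 1) (by omega) l j)).sub (ih k (by omega) i j)
      refine h2.congr_fderiv ?_
      ext E
      simp only [_root_.sub_apply, _root_.sum_apply, _root_.add_apply, _root_.smul_apply, dchE_apply, dcheb_one,
        smul_eq_mul]
      rw [dcheb_add_two, Matrix.sub_apply, Matrix.add_apply, Matrix.mul_apply, Matrix.mul_apply,
        ← sum_add_distrib]
      congr 1
      refine sum_congr rfl fun l _ => ?_
      ring

/-- the polynomial `h = ∑ c_k U_k` of `W(z)` -/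
theorem hasFDerivAt_poly (s : Finset ℕ) (c : ℕ → ℝ) (z : Ix N → ℝ) (i j : Fin N) :
    HasFDerivAt (fun z : Ix N → ℝ => (∑ k ∈ s, c k • cheb k (Wm N z)) i j)
      (∑ k ∈ s, c k • dchE k (Wm N z) i j) z := by
  have h : (fun z : Ix N → ℝ => (∑ k ∈ s, c k • cheb k (Wm N z)) i j) = fun z =>
      ∑ k ∈ s, c k * cheb k (Wm N z) i j := by
    funext z
    simp [Matrix.sum_apply]
  rw [h]
  exact HasFDerivAt.fun_sum fun k _ => (hasFDerivAt_cheb k z i j).const_mul (c k)

/-- the entries of the derivative in the coordinates of the disorder -/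
lemma dcheb_entry (k : ℕ) (W : Matrix (Fin N) (Fin N) ℝ) (E : Ix N → ℝ) (i j : Fin N) :
    √((N : ℝ) / 2) * dcheb (k + 1) W (Wm N E) i j =
      ∑ f : Ix N, 1 / 2 * (∑ a ∈ range (k + 1), (cheb a W i f.1 * cheb (k - a) W f.2 j +
        cheb a W i f.2 * cheb (k - a) W f.1 j)) * E f := by
  have hN : 0 < N := Fin.pos i
  have hN0 : (0 : ℝ) < N := by exact_mod_cast hN
  have hs : √((N : ℝ) / 2) * (1 / √(2 * (N : ℝ))) = 1 / 2 := by
    have h1 : √((N : ℝ) / 2) = √(2 * (N : ℝ)) / 2 := by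
      have h2 : (N : ℝ) / 2 = 2 * N / 2 ^ 2 := by ring
      rw [h2, Real.sqrt_div (by positivity), Real.sqrt_sq (by norm_num)]
    rw [h1]
    have h3 : √(2 * (N : ℝ)) ≠ 0 := (Real.sqrt_pos.2 (by positivity)).ne'
    field_simp
  have h1 : ∀ a, (cheb a W * Wm N E * cheb (k - a) W) i j = 1 / √(2 * (N : ℝ)) *
      ∑ f : Ix N, (cheb a W i f.1 * cheb (k - a) W f.2 j +
        cheb a W i f.2 * cheb (k - a) W f.1 j) * E f := by
    intro a
    have e1 : (cheb a W * Wm N E * cheb (k - a) W) i j =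
        1 / √(2 * (N : ℝ)) * (∑ q, ∑ p, cheb a W i p * E (p, q) * cheb (k - a) W q j +
          ∑ q, ∑ p, cheb a W i p * E (q, p) * cheb (k - a) W q j) := by
      rw [Matrix.mul_apply]
      simp only [Matrix.mul_apply, sum_mul]
      rw [← sum_add_distrib, mul_sum]
      refine sum_congr rfl fun q _ => ?_
      rw [← sum_add_distrib, mul_sum]
      refine sum_congr rfl fun p _ => ?_
      simp only [Wm, Matrix.of_apply]
      ring
    rw [e1]
    congr 1
    rw [sum_comm (f := fun q p => cheb a W i p * E (p, q) * cheb (k - a) W q j)]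
    rw [Fintype.sum_prod_type, ← sum_add_distrib]
    refine sum_congr rfl fun q _ => ?_
    rw [← sum_add_distrib]
    refine sum_congr rfl fun p _ => ?_
    ring
  unfold dcheb
  rw [Matrix.sum_apply, mul_sum]
  have h2 : ∀ a ∈ range (k + 1), √((N : ℝ) / 2) *
      (cheb a W * Wm N E * cheb (k + 1 - 1 - a) W) i j =
      ∑ f : Ix N, 1 / 2 * (cheb a W i f.1 * cheb (k - a) W f.2 j +
        cheb a W i f.2 * cheb (k - a) W f.1 j) * E f := by
    intro a _
    have e2 : k + 1 - 1 - a = k - a := by omega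
    rw [e2, h1, ← mul_assoc, hs, mul_sum]
    refine sum_congr rfl fun f _ => ?_
    ring
  rw [sum_congr rfl h2, sum_comm]
  refine sum_congr rfl fun f _ => ?_
  rw [mul_sum, sum_mul]

/-- **Row C.** -/
theorem stC : Vale.Agent.P146.R2.H729.Tr.StC := by
  intro L c η N z
  rw [hasFDerivAt_pi']
  rintro ⟨i, j⟩
  have h1 : (fun z : Ix N → ℝ => Vale.Agent.P146.R2.H729.Tr.TT L c η N z (i, j)) = fun z =>
      z (i, j) - η * (√((N : ℝ) / 2) * ∑ k ∈ range L, c k * cheb (k + 1) (Wm N z) i j) := by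
    funext z
    unfold Vale.Agent.P146.R2.H729.Tr.TT Vale.Agent.P146.R2.H729.Tr.hm
    simp [Matrix.sum_apply]
  rw [h1]
  have h2 := (hasFDerivAt_apply (𝕜 := ℝ) (i, j) z).sub
    (((HasFDerivAt.fun_sum fun k (_ : k ∈ range L) =>
      (hasFDerivAt_cheb (k + 1) z i j).const_mul (c k)).const_mul √((N : ℝ) / 2)).const_mul η)
  refine h2.congr_fderiv ?_
  ext E
  have h3 : ((ContinuousLinearMap.proj (i, j) : (Ix N → ℝ) →L[ℝ] ℝ).comp
      (LinearMap.toContinuousLinearMap (Matrix.toLin' (1 - η •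
        Vale.Agent.P146.R2.H729.Tr.KK L c (Wm N z))))) E =
      E (i, j) - η * ∑ f, Vale.Agent.P146.R2.H729.Tr.KK L c (Wm N z) (i, j) f * E f := by
    change ((1 - η • Vale.Agent.P146.R2.H729.Tr.KK L c (Wm N z)) *ᵥ E) (i, j) = _
    rw [Matrix.sub_mulVec, Matrix.one_mulVec, Matrix.smul_mulVec]
    rfl
  rw [h3]
  simp only [_root_.sub_apply, _root_.sum_apply, _root_.smul_apply, dchE_apply, smul_eq_mul,
    ContinuousLinearMap.proj_apply]
  congr 2
  rw [mul_sum]
  have h4 : ∀ k ∈ range L, √((N : ℝ) / 2) * (c k * dcheb (k + 1) (Wm N z) (Wm N E) i j) =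
      ∑ f : Ix N, c k * (1 / 2 * (∑ a ∈ range (k + 1), (cheb a (Wm N z) i f.1 *
        cheb (k - a) (Wm N z) f.2 j + cheb a (Wm N z) i f.2 * cheb (k - a) (Wm N z) f.1 j)) *
          E f) := by
    intro k _
    rw [← mul_sum, ← dcheb_entry]
    ring
  rw [sum_congr rfl h4, sum_comm]
  refine sum_congr rfl fun f _ => ?_
  unfold Vale.Agent.P146.R2.H729.Tr.KK
  simp only [Matrix.of_apply]
  rw [mul_sum, sum_mul]
  refine sum_congr rfl fun k _ => ?_
  ring

end Vale.Agent.P146.R2.H952.Tr
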