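import Vale.Agent.P146.R2.H952.XDef
import Vale.Agent.P146.R2.H793.TrH3

/-!
# P146: row H2, the R-transform near the edge, from the Stieltjes transform
-/

open MeasureTheory Set Filter Topology Vale.Agent.P166

namespace Vale.Agent.P146.R2.H952.X

open Vale.Agent.P146.R3 Vale.Agent.P146.R3.H49 Vale.Agent.P146.R2.H793.H3

/-- **Row H2.** -/
theorem stH2 (h1 : Vale.Agent.P146.R2.H952.X.StH1) : Vale.Agent.P146.R2.H952.X.StH2 := by
  intro c hc hc1
  obtain ⟨τ, κ, hτ, hτc, hκ, H⟩ := h1 c hc hc1
  refine ⟨τ, κ, hτ, hκ, fun β hβ ε hε hε1 h h0 hcont hpos hedge μ hμ => ?_⟩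
  have hii := H ε hε hε1 h hcont hpos hedge
  have hi : ∀ x ∈ Icc (-2 : ℝ) 2, x - h x < 2 - τ * ε := by
    intro x hx
    by_cases hxe : 2 - ε ≤ x
    · have h2 := hedge x ⟨hxe, hx.2⟩
      have h3 : τ * ε < c * ε := mul_lt_mul_of_pos_right hτc hε
      linarith [hx.2]
    · have h2 := hpos x hx
      have h3 : τ * ε < 1 * ε := mul_lt_mul_of_pos_right (hτc.trans_le hc1) hε
      rw [not_le] at hxe
      linarith
  have hc' : Continuous fun x => h x - h0 := by fun_prop
  rw [hμ]
  refine ⟨fun y hy => ?_, fun y hy hey => ?_⟩
  · have key : stInv (sc.map fun x => β * (x - (h x - h0))) y - β * h0 ≤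
        stInv (muS β 0 0) y := by
      refine le_stInv hy fun z hz => ?_
      have hz2 := two_lt hz
      have hle : ∀ x ∈ Icc (-2 : ℝ) 2, β * (x - h x) ≤ β * x := fun x hx =>
        mul_le_mul_of_nonneg_left (by linarith [hpos x hx]) hβ.le
      have hle2 : ∀ x ∈ Icc (-2 : ℝ) 2, β * x ≤ 2 * β := fun x hx => by nlinarith [hx.2]
      have h5 : stInv (sc.map fun x => β * (x - (h x - h0))) y ≤ z + β * h0 := by
        refine sInv_le ((sSup_le hc' (c := 2 * β + β * h0) fun x hx => ?_).trans_lt
          (by linarith)) ?_
        · have e : β * (x - (h x - h0)) = β * (x - h x) + β * h0 := by ring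
          rw [e]
          linarith [hle x hx, hle2 x hx]
        · have hzz := hz.2
          rw [integral_muS] at hzz
          rw [integral_h hc']
          refine le_trans ?_ hzz
          have hpos' : 0 < z - 2 * β := by linarith
          have e : (fun x => (z + β * h0 - β * (x - (h x - h0)))⁻¹) =
              fun x => (z - β * (x - h x))⁻¹ := by
            funext x
            congr 1
            ring
          rw [e]
          refine integral_mono_ae ?_ ?_ ?_
          · refine integrable_sc (C := (z - 2 * β)⁻¹)
              ((measurable_const.sub (cont_f β hcont).measurable).inv) fun x hx => ?_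
            have h1 : z - 2 * β ≤ z - β * (x - h x) := by linarith [hle x hx, hle2 x hx]
            rw [abs_of_pos (inv_pos.2 (hpos'.trans_le h1))]
            exact inv_anti₀ hpos' h1
          · refine integrable_sc (C := (z - 2 * β)⁻¹)
              ((measurable_const.sub (continuous_hs β 0 0).measurable).inv) fun x hx => ?_
            rw [hs_zero]
            have h1 : z - 2 * β ≤ z - β * x := by linarith [hle2 x hx]
            rw [abs_of_pos (inv_pos.2 (hpos'.trans_le h1))]
            exact inv_anti₀ hpos' h1
          · filter_upwards [sc_ae] with x hx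
            rw [hs_zero]
            exact inv_anti₀ (by linarith [hle2 x hx]) (by linarith [hle x hx])
      linarith
    linarith
  · have h5 : stInv (sc.map fun x => β * (x - (h x - h0))) y ≤ β * (2 - τ * ε) + β * h0 := by
      refine sInv_le ?_ ?_
      · obtain ⟨x₀, hx₀, hmax⟩ := isCompact_Icc.exists_isMaxOn
          (nonempty_Icc.2 (by norm_num : (-2 : ℝ) ≤ 2)) (cont_f β hc').continuousOn
        refine (sSup_le hc' fun x hx => hmax hx).trans_lt ?_
        change β * (x₀ - (h x₀ - h0)) < β * (2 - τ * ε) + β * h0
        have e : β * (x₀ - (h x₀ - h0)) = β * (x₀ - h x₀) + β * h0 := by ring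
        rw [e]
        have := mul_lt_mul_of_pos_left (hi x₀ hx₀) hβ
        linarith
      · rw [integral_h hc']
        have h2 : (fun x => (β * (2 - τ * ε) + β * h0 - β * (x - (h x - h0)))⁻¹) =
            fun x => β⁻¹ * (2 - τ * ε - x + h x)⁻¹ := by
          funext x
          rw [← mul_inv]
          congr 1
          ring
        rw [h2, integral_const_mul]
        calc β⁻¹ * ∫ x, (2 - τ * ε - x + h x)⁻¹ ∂sc ≤ β⁻¹ * (β * y) :=
              mul_le_mul_of_nonneg_left (hii.trans hey) (inv_pos.2 hβ).le
          _ = y := by field_simp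
    have h2 : 2 * β ≤ stInv (muS β 0 0) y := le_stInv hy fun z hz => (two_lt hz).le
    linarith

end Vale.Agent.P146.R2.H952.X
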