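import Vale.Agent.P146.R2.H729.TrDef
import Vale.Agent.P146.R3.Def

/-!
# P146: the exponent 12/5: definitions and elementary rows
-/

open MeasureTheory ProbabilityTheory Matrix Filter Topology
open scoped Matrix.Norms.L2Operator

namespace Vale.Agent.P146.R2.H952.X

open Vale.Agent.P146.R3 (chR sc muS PV)
open Vale.Agent.P146.Sk (Wm Ix)

/-- `h(x) = ∑_{k < L} c_k U_{k+1}(x)` -/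
noncomputable def hR (L : ℕ) (c : ℕ → ℝ) (x : ℝ) : ℝ := ∑ k ∈ Finset.range L, c k * chR (k + 1) x

/-- the law of `β (x - h(x))`, `x` semicircle -/
noncomputable def muH (β : ℝ) (L : ℕ) (c : ℕ → ℝ) : Measure ℝ :=
  sc.map fun x => β * (x - hR L c x)

/-- bound for the Jacobian -/
noncomputable def nrm (L : ℕ) (c : ℕ → ℝ) (q : ℝ) : ℝ :=
  ∑ k ∈ Finset.range L, |c k| * ∑ a ∈ Finset.range (k + 1),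
    (((a : ℝ) + 1) * q ^ a) * ((((k - a : ℕ) : ℝ) + 1) * q ^ (k - a))

/-- the cost -/
noncomputable def cst (L : ℕ) (c : ℕ → ℝ) : ℝ :=
  1 / 4 * ∑ k ∈ Finset.range L, (2 * (k : ℝ) + 3) * c k ^ 2

/-- Row K: the Fejer kernel `F_L = ∑_{j ≤ L-2} U_j + ∑_{j ≤ L-1} U_j`, times `γ`, without its
constant term `2 γ` -/
def StK : Prop := ∀ L : ℕ, 2 ≤ L → ∀ γ : ℝ, 0 ≤ γ → ∃ (c : ℕ → ℝ) (h : ℝ → ℝ),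
  (∀ k, 0 ≤ c k ∧ c k ≤ 2 * γ) ∧ Continuous h ∧ (∀ x : ℝ, hR L c x = h x - 2 * γ) ∧
  (∀ x ∈ Set.Icc (-2 : ℝ) 2, 0 ≤ h x) ∧
  ∀ x ∈ Set.Icc (2 - 1 / (L : ℝ) ^ 2) 2, γ * L ^ 2 / 4 ≤ h x

/-- Row Q: the norm and the cost of such coefficients -/
def StQ : Prop := ∀ L : ℕ, 2 ≤ L → ∀ δ : ℝ, 0 ≤ δ → ∀ c : ℕ → ℝ,
  (∀ k, 0 ≤ c k ∧ c k ≤ 2 * (δ / L ^ 4)) →
  nrm L c (1 + 1 / L) ≤ 6 * δ ∧ cst L c ≤ 3 * δ ^ 2 / L ^ 6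

/-- Row E': norm bounds -/
def StE' : Prop := ∀ (L : ℕ) (c : ℕ → ℝ) (q : ℝ), 1 ≤ q → ∀ (N : ℕ)
  (A B : Matrix (Fin N) (Fin N) ℝ), A.IsSymm → B.IsSymm → ‖A‖ ≤ q + q⁻¹ → ‖B‖ ≤ q + q⁻¹ →
  (∀ x : Ix N → ℝ, ∑ e, (H729.Tr.KK L c A *ᵥ x) e ^ 2 ≤ nrm L c q ^ 2 * ∑ e, x e ^ 2) ∧
  ∑ i, ∑ j, (H729.Tr.hm L c A i j - H729.Tr.hm L c B i j) ^ 2 ≤
    nrm L c q ^ 2 * ∑ i, ∑ j, (A i j - B i j) ^ 2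

/-- Row H1: the Stieltjes transform near the edge -/
def StH1 : Prop := ∀ c : ℝ, 0 < c → c ≤ 1 → ∃ τ κ : ℝ, 0 < τ ∧ τ < c ∧ 0 < κ ∧
  ∀ ε : ℝ, 0 < ε → ε ≤ 1 → ∀ h : ℝ → ℝ, Continuous h → (∀ x ∈ Set.Icc (-2 : ℝ) 2, 0 ≤ h x) →
  (∀ x ∈ Set.Icc (2 - ε) 2, c * ε ≤ h x) →
  ∫ x, (2 - τ * ε - x + h x)⁻¹ ∂sc ≤ 1 - κ * √ε

/-- Row H2: the R-transform near the edge -/
def StH2 : Prop := ∀ c : ℝ, 0 < c → c ≤ 1 → ∃ τ κ : ℝ, 0 < τ ∧ 0 < κ ∧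
  ∀ β : ℝ, 0 < β → ∀ ε : ℝ, 0 < ε → ε ≤ 1 → ∀ (h : ℝ → ℝ) (h0 : ℝ), Continuous h →
  (∀ x ∈ Set.Icc (-2 : ℝ) 2, 0 ≤ h x) → (∀ x ∈ Set.Icc (2 - ε) 2, c * ε ≤ h x) →
  ∀ μ : Measure ℝ, μ = sc.map (fun x => β * (x - (h x - h0))) →
  (∀ y : ℝ, 0 < y → P166.stInv μ y ≤ P166.stInv (muS β 0 0) y + β * h0) ∧
  ∀ y : ℝ, 0 < y → 1 - κ * √ε ≤ β * y →
    P166.stInv μ y ≤ P166.stInv (muS β 0 0) y + β * h0 - β * (τ * ε)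

end Vale.Agent.P146.R2.H952.X
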