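import Vale.Agent.P146.R2.H952.Jen
import Vale.Agent.Results.P146.SharpRate

/-!
# P146: the limit of the mean free energy per spin exceeds `log 2`; literal forms
-/

open MeasureTheory ProbabilityTheory Filter Topology

namespace Vale.Agent.P146.R2.H952

open Vale.Agent.P146.H605

/-- the free energy is at least its value at zero couplings -/
theorem log_two_le (n : ℕ) (β : ℝ) (g : Pair n → ℝ) : n * Real.log 2 ≤ freeEnergy n β g := by
  have := freeEnergy_zero_le β g
  rwa [freeEnergy_zero] at this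

/-- smoothing, second form -/
theorem smooth_le' (n : ℕ) (hn : 1 ≤ n) (β : ℝ) {t : ℝ} (ht : t ∈ Set.Icc (0 : ℝ) 1)
    (z : Pair n → ℝ) :
    ∫ g, freeEnergy n β (mixed n t z g) ∂(disorder n) ≤
      freeEnergy n β z + (1 - t) * (β ^ 2 * n / 4) := by
  have h := smooth_le hn β ht.1 ht.2 z
  have e : (1 - t) * (β ^ 2 * n / 4) = (1 - t) * β ^ 2 * n / 4 := by ring
  rwa [e]

/-- the mean is at most its limit, for every `n` -/
theorem mean_le_lim {β : ℝ} (hβ : 1 < β) {p : ℝ}
    (hp : Tendsto (fun n : ℕ => (∫ g, freeEnergy n β g ∂(disorder n)) / n) atTop (𝓝 p))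
    (n : ℕ) (hn : 1 ≤ n) : ∫ g, freeEnergy n β g ∂(disorder n) ≤ n * p := by
  obtain ⟨c₀, Λ, -, -, h⟩ := Vale.Agent.Results.P146.SharpRate.result
  obtain ⟨-, q, C, a, b, -, -, hq, -, hall, -⟩ := h β hβ
  have hpq : p = q := tendsto_nhds_unique hp hq
  rw [hpq]
  exact (hall n hn).2.2.2.2.2.2.1

/-- `p > log 2` -/
theorem log_two_lt_lim {β : ℝ} (hβ : 1 < β) {p : ℝ}
    (hp : Tendsto (fun n : ℕ => (∫ g, freeEnergy n β g ∂(disorder n)) / n) atTop (𝓝 p)) :
    Real.log 2 < p := by
  refine log_two_lt (β := β) (by linarith) ?_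
  have := mean_le_lim hβ hp 2 (by norm_num)
  exact_mod_cast this

end Vale.Agent.P146.R2.H952
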