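import Vale.Agent.P146.R2.H952.Lim
import Vale.Agent.P146.R2.H639.LowC

/-!
# P146: the lower bound for the lower tail, from the limit of the mean alone
-/

open MeasureTheory ProbabilityTheory Filter Topology

namespace Vale.Agent.P146.R2.H952

/-- the lower tail has speed at most `n ^ 2` -/
theorem low_final {β : ℝ} (hβ : 1 < β) {p : ℝ}
    (hp : Tendsto (fun n : ℕ => (∫ g, freeEnergy n β g ∂(disorder n)) / n) atTop (𝓝 p)) :
    Real.log 2 < p ∧ ∀ᶠ n : ℕ in atTop, ∀ s : ℝ, 2 * β / Real.sqrt n ≤ s →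
      s ≤ (p - Real.log 2) / 8 →
      Real.exp (-(9 * s ^ 2 * n ^ 2 / (p - Real.log 2) ^ 2)) ≤
        (disorder n).real {g | freeEnergy n β g ≤ n * (p - s)} :=
  ⟨log_two_lt_lim hβ hp,
    Vale.Agent.P146.R2.H639.low_prob_eventually hβ (log_two_lt_lim hβ hp) (mean_le_lim hβ hp)⟩

end Vale.Agent.P146.R2.H952
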