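import Vale.Agent.P146.R2.H952.Sharp
import Vale.Agent.P146.R2.H639.LowB
import Vale.Agent.P146.R2.H144.Low

/-!
# P146: the lower tail through the free energy at a smaller inverse temperature
-/

open MeasureTheory ProbabilityTheory Filter Topology

namespace Vale.Agent.P146.R2.H952

open Vale.Agent.P146 Vale.Agent.P146.H605

/-- a scaled disorder is a change of temperature -/
lemma freeEnergy_scaled (n : ℕ) (β r : ℝ) (g : Pair n → ℝ) :
    freeEnergy n β (fun p => r * g p) = freeEnergy n (r * β) g := by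
  unfold freeEnergy partitionFn hamiltonian
  congr 1
  refine Finset.sum_congr rfl fun σ _ => ?_
  congr 1
  have h : ∑ p : Pair n, r * g p * ((σ p.1.1 : ℤ) : ℝ) * ((σ p.1.2 : ℤ) : ℝ) =
      r * ∑ p : Pair n, g p * ((σ p.1.1 : ℤ) : ℝ) * ((σ p.1.2 : ℤ) : ℝ) := by
    rw [Finset.mul_sum]
    exact Finset.sum_congr rfl fun p _ => by ring
  rw [h]
  ring

/-- the cost of a scaling by `r` -/
noncomputable def kap (r : ℝ) : ℝ := -Real.log r - (1 - r ^ 2) / 2

lemma scale_ge {r : ℝ} (h0 : 0 < r) (h1 : r ≤ 1) (n : ℕ) (A : Set (Pair n → ℝ))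
    (hA : MeasurableSet A) (h : 3 / 4 ≤ (disorder n).real {g | (fun p => r * g p) ∈ A}) :
    1 / 2 * Real.exp (-(Fintype.card (Pair n) * kap r +
      2 * (1 - r ^ 2) * Real.sqrt (Fintype.card (Pair n)))) ≤ (disorder n).real A := by
  have h2 := Vale.Agent.P146.H144.change' (ι := Pair n) h0 h1 hA
  refine le_trans ?_ h2
  rw [mul_comm]
  refine mul_le_mul_of_nonneg_left ?_ (Real.exp_pos _).le
  have h3 : 3 / 4 ≤ (Measure.pi fun _ : Pair n => gaussianReal 0 1).real
      {g | (fun i => r * g i) ∈ A} := h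
  linarith

lemma kap_nonneg {r : ℝ} (h0 : 0 < r) (h1 : r ≤ 1) : 0 ≤ kap r := by
  unfold kap
  have := Real.log_le_sub_one_of_pos h0
  nlinarith

lemma le_prob_mean (n : ℕ) (hn : 1 ≤ n) (β : ℝ) {c : ℝ} (hc : 0 < c) :
    1 - β ^ 2 * n / 2 / c ^ 2 ≤ (disorder n).real
      {g | freeEnergy n β g ≤ (∫ g, freeEnergy n β g ∂(disorder n)) + c} :=
  Vale.Agent.P146.R2.H639.cheb hc (var_le_lin n β hn)

/-- the lower tail at `β` is at least the cost of a change of temperature -/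
theorem low_temp_of {β : ℝ} {r : ℝ} (h0 : 0 < r) (h1 : r ≤ 1)
    (hS : ∀ n : ℕ, ∀ A : Set (Pair n → ℝ), MeasurableSet A →
      3 / 4 ≤ (disorder n).real {g | (fun p => r * g p) ∈ A} →
      1 / 2 * Real.exp (-(Fintype.card (Pair n) * kap r +
        2 * (1 - r ^ 2) * Real.sqrt (Fintype.card (Pair n)))) ≤ (disorder n).real A)
    {q : ℝ} (hq : Tendsto (fun n : ℕ => (∫ g, freeEnergy n (r * β) g ∂(disorder n)) / n) atTop
      (𝓝 q)) {ε : ℝ} (hε : 0 < ε) :
    ∀ᶠ n : ℕ in atTop, Real.exp (-((kap r / 2 + ε) * n ^ 2)) ≤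
      (disorder n).real {g | freeEnergy n β g ≤ n * (q + ε)} := by
  have e1 : ∀ᶠ n : ℕ in atTop, (∫ g, freeEnergy n (r * β) g ∂(disorder n)) / n < q + ε / 2 :=
    hq.eventually_lt_const (by linarith)
  have e2 : ∀ᶠ n : ℕ in atTop, 8 * (r * β) ^ 2 / ε ^ 2 ≤ (n : ℝ) :=
    tendsto_natCast_atTop_atTop.eventually_ge_atTop _
  have e3 : ∀ᶠ n : ℕ in atTop, 3 / ε ≤ (n : ℝ) :=
    tendsto_natCast_atTop_atTop.eventually_ge_atTop _
  filter_upwards [e1, e2, e3, eventually_ge_atTop 1] with n h2 h3 h4 hn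
  have hn0 : (0 : ℝ) < n := by exact_mod_cast hn
  have hn1 : (1 : ℝ) ≤ n := by exact_mod_cast hn
  have : IsProbabilityMeasure (disorder n) := by unfold disorder; infer_instance
  have hcheb := le_prob_mean n hn (r * β) (c := n * (ε / 2)) (by positivity)
  have h5 : (r * β) ^ 2 * n / 2 / (n * (ε / 2)) ^ 2 ≤ 1 / 4 := by
    rw [div_le_iff₀ (by positivity)]
    rw [div_le_iff₀ (by positivity)] at h3
    nlinarith
  have hA : MeasurableSet {g : Pair n → ℝ | freeEnergy n β g ≤ n * (q + ε)} :=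
    measurableSet_le (freeEnergy_dom n β).cont.measurable measurable_const
  have h6 := hS n _ hA (by
    refine (by linarith : (3 : ℝ) / 4 ≤ _).trans (hcheb.trans (measureReal_mono ?_))
    intro g hg
    have hg' : freeEnergy n (r * β) g ≤
        (∫ g, freeEnergy n (r * β) g ∂(disorder n)) + n * (ε / 2) := hg
    change freeEnergy n β (fun p => r * g p) ≤ n * (q + ε)
    rw [freeEnergy_scaled]
    rw [div_lt_iff₀ hn0] at h2
    nlinarith)
  refine le_trans ?_ h6
  have hk := kap_nonneg h0 h1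
  have hN : 2 * (Fintype.card (Pair n) : ℝ) ≤ (n : ℝ) ^ 2 := by
    exact_mod_cast Vale.Agent.P146.R2.H639.card_pair_le n
  have hsq : Real.sqrt (Fintype.card (Pair n)) ≤ n := by
    refine Real.sqrt_le_iff.2 ⟨hn0.le, ?_⟩
    have : (0 : ℝ) ≤ (Fintype.card (Pair n) : ℝ) := Nat.cast_nonneg _
    linarith
  have hr2 : 2 * (1 - r ^ 2) * Real.sqrt (Fintype.card (Pair n)) ≤ 2 * n := by
    have ha : 1 - r ^ 2 ≤ 1 := by nlinarith [sq_nonneg r]
    have hb : 0 ≤ 1 - r ^ 2 := by nlinarith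
    have hc := Real.sqrt_nonneg (Fintype.card (Pair n) : ℝ)
    nlinarith
  have hfin : 1 + (Fintype.card (Pair n) * kap r +
      2 * (1 - r ^ 2) * Real.sqrt (Fintype.card (Pair n))) ≤ (kap r / 2 + ε) * n ^ 2 := by
    have ha : (Fintype.card (Pair n) : ℝ) * kap r ≤ kap r / 2 * n ^ 2 := by
      have := mul_le_mul_of_nonneg_right hN hk
      linarith
    have hb : 3 * (n : ℝ) ≤ ε * n ^ 2 := by
      rw [div_le_iff₀ hε] at h4
      nlinarith
    linarith
  have hhalf : Real.exp (-1) ≤ 1 / 2 := by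
    rw [Real.exp_neg, inv_le_comm₀ (Real.exp_pos _) (by norm_num)]
    have := Real.exp_one_gt_d9
    linarith
  calc Real.exp (-((kap r / 2 + ε) * n ^ 2))
      ≤ Real.exp (-1 + -(Fintype.card (Pair n) * kap r +
          2 * (1 - r ^ 2) * Real.sqrt (Fintype.card (Pair n)))) :=
        Real.exp_le_exp.2 (by linarith)
    _ ≤ _ := by
        rw [Real.exp_add]
        exact mul_le_mul_of_nonneg_right hhalf (Real.exp_pos _).le

/-- **The lower tail through the change of temperature.** -/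
theorem low_temp {β : ℝ} (hβ : 0 < β) {b q : ℝ} (hb0 : 0 < b) (hb : b ≤ β)
    (hq : Tendsto (fun n : ℕ => (∫ g, freeEnergy n b g ∂(disorder n)) / n) atTop (𝓝 q))
    {ε : ℝ} (hε : 0 < ε) :
    ∀ᶠ n : ℕ in atTop,
      Real.exp (-(((-Real.log (b / β) - (1 - (b / β) ^ 2) / 2) / 2 + ε) * (n : ℝ) ^ 2)) ≤
        (disorder n).real {g | freeEnergy n β g ≤ n * (q + ε)} := by
  have h0 : 0 < b / β := div_pos hb0 hβ
  have h1 : b / β ≤ 1 := (div_le_one hβ).2 hb
  refine low_temp_of (β := β) h0 h1 (scale_ge h0 h1) ?_ hε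
  have e : b / β * β = b := by field_simp
  rw [e]
  exact hq

end Vale.Agent.P146.R2.H952
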