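import Vale.Agent.P146.H605.Noise
import Vale.Agent.P146.H605.Stab
import Vale.Agent.P146.R2.H749.Bessel

/-!
# P146: lower bounds for the overlap and the covariance of correlated copies

The first order Hermite coefficients of the gradient of the free energy give
`n R_β(t) ≥ 1 + t (β (1 - R_β(1)))²`, and `β (1 - R_β(1)) = 2 (E F_n)'(β) / n` is
nondecreasing in `β` by convexity.
-/

open MeasureTheory ProbabilityTheory

namespace Vale.Agent.P146.R2.H952

open Vale.Agent.P146 Vale.Agent.P146.Ub.Cv Vale.Agent.P146.H605 Vale.Agent.P146.R2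
  Vale.Agent.P146.R2.H749

section gen

variable {ι : Type*} [Fintype ι] [DecidableEq ι]

lemma co_single (A : (ι → ℝ) → ℝ) (e : ι) :
    co A (Pi.single e 1) = ∫ g, g e * A g ∂(gpi ι) := by
  unfold co
  refine integral_congr_ae (Filter.Eventually.of_forall fun g => ?_)
  simp only
  have h := heM_add (0 : ι → ℕ) e g
  rw [zero_add] at h
  rw [h]
  simp [mul_comm]

/-- the first Hermite level bounds the correlation from below -/
lemma QQ_ge {A : (ι → ℝ) → ℝ} (hA : Dom A) (e : ι) {t : ℝ} (h0 : 0 ≤ t) (h1 : t ≤ 1) :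
    t * (∫ g, g e * A g ∂(gpi ι)) ^ 2 ≤ QQ A t := by
  have h := bessel hA h0 h1 {Pi.single e 1}
  rw [Finset.sum_singleton, co_single] at h
  have e1 : ∑ i, (Pi.single e 1 : ι → ℕ) i = 1 := by simp
  have e2 : ∏ i, (((Pi.single e 1 : ι → ℕ) i).factorial : ℝ) = 1 := by
    refine Finset.prod_eq_one fun i _ => ?_
    by_cases hi : i = e
    · subst hi; simp
    · simp [Pi.single_eq_of_ne hi]
  rw [e1, e2, pow_one, div_one] at h
  exact h

end gen

variable (n : ℕ) (β : ℝ)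

/-- Stein's identity for the gradient of the free energy -/
lemma stein_gradF (hn : 1 ≤ n) (p : Pair n) :
    ∫ g, g p * gradF n β p g ∂(gpi (Pair n)) =
      β ^ 2 / n * (1 - ∫ g, av n β (ps p) g ^ 2 ∂(gpi (Pair n))) := by
  have hn0 : (0 : ℝ) < n := by exact_mod_cast hn
  have hr := reg_freeEnergy n β
  rw [ibp p (hr.G_dom p) (hr.H_dom p) (fun g t => hr.G_diff p g t)]
  have e : ∀ g, hessF n β p g = β ^ 2 / n + (-(β ^ 2 / n)) * (av n β (ps p) g ^ 2) := by
    intro g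
    unfold hessF
    have e1 : symmDiff (ps p) (ps p) = ∅ := symmDiff_self _
    rw [e1, av_empty]
    have e2 : (β / Real.sqrt n) * ((β / Real.sqrt n) * (1 - av n β (ps p) g * av n β (ps p) g)) =
      (β / Real.sqrt n) ^ 2 * (1 - av n β (ps p) g ^ 2) := by ring
    rw [e2, div_pow, Real.sq_sqrt hn0.le]
    ring
  simp_rw [e]
  rw [int_add (Dom.const _) (((av_dom n β (ps p)).pow 2).const_mul _), integral_const_mul]
  simp
  ring

lemma card_pair_eq : ∑ _p : Pair n, (1 : ℝ) = ((n : ℝ) ^ 2 - n) / 2 := by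
  have h := Vale.Agent.P146.Ub.rc_pair_sq (n := n) (fun _ => 1)
  simpa using h

lemma sum_stein (hn : 1 ≤ n) :
    ∑ p : Pair n, ∫ g, g p * gradF n β p g ∂(gpi (Pair n)) =
      β ^ 2 * n / 2 * (1 - crossOverlap n β 1) := by
  have hn0 : (0 : ℝ) < n := by exact_mod_cast hn
  simp_rw [stein_gradF n β hn]
  have e5 : crossOverlap n β 1 = 1 / n + 2 / (n : ℝ) ^ 2 *
      ∑ p : Pair n, ∫ g, av n β (ps p) g ^ 2 ∂(gpi (Pair n)) := by
    rw [crossOverlap_eq n β hn zero_le_one le_rfl]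
    simp_rw [cm_one, disorder_eq]
  rw [← Finset.mul_sum, Finset.sum_sub_distrib, card_pair_eq, e5]
  field_simp
  ring

/-- **Lower bound for the chaos profile.** -/
theorem prof_lower (hn : 1 ≤ n) {t : ℝ} (h0 : 0 ≤ t) (h1 : t ≤ 1) :
    β ^ 2 / 2 * (t * (β * (1 - crossOverlap n β 1)) ^ 2) ≤ prof n β t := by
  have hn0 : (0 : ℝ) < n := by exact_mod_cast hn
  have hr := reg_freeEnergy n β
  rw [prof_QQ n β hn h0 h1]
  have h2 : ∑ p : Pair n, t * (∫ g, g p * gradF n β p g ∂(gpi (Pair n))) ^ 2 ≤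
      ∑ p : Pair n, QQ (gradF n β p) t :=
    Finset.sum_le_sum fun p _ => QQ_ge (hr.G_dom p) p h0 h1
  refine le_trans ?_ h2
  rw [← Finset.mul_sum]
  have h3 := sq_sum_le_card_mul_sum_sq (s := (Finset.univ : Finset (Pair n)))
    (f := fun p => ∫ g, g p * gradF n β p g ∂(gpi (Pair n)))
  rw [sum_stein n β hn] at h3
  have h4 : ((Finset.univ : Finset (Pair n)).card : ℝ) ≤ (n : ℝ) ^ 2 / 2 := by
    have h := card_pair_eq n
    rw [Finset.sum_const, nsmul_eq_mul, mul_one] at h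
    rw [h]
    linarith
  obtain ⟨T, hT⟩ : ∃ T, T = ∑ p : Pair n, (∫ g, g p * gradF n β p g ∂(gpi (Pair n))) ^ 2 :=
    ⟨_, rfl⟩
  rw [← hT] at h3 ⊢
  have hT0 : 0 ≤ T := by rw [hT]; exact Finset.sum_nonneg fun p _ => sq_nonneg _
  have h5 := h3.trans (mul_le_mul_of_nonneg_right h4 hT0)
  have h6 : β ^ 2 / 2 * (β * (1 - crossOverlap n β 1)) ^ 2 ≤ T := by
    have h7 : (n : ℝ) ^ 2 / 2 * (β ^ 2 / 2 * (β * (1 - crossOverlap n β 1)) ^ 2) ≤
        (n : ℝ) ^ 2 / 2 * T := by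
      refine le_trans (le_of_eq ?_) h5
      ring
    exact le_of_mul_le_mul_left h7 (by positivity)
  have h8 := mul_le_mul_of_nonneg_left h6 h0
  refine le_trans (le_of_eq ?_) h8
  ring

theorem overlap_lower (hn : 1 ≤ n) (hβ : β ≠ 0) {t : ℝ} (h0 : 0 ≤ t) (h1 : t ≤ 1) :
    1 + t * (β * (1 - crossOverlap n β 1)) ^ 2 ≤ n * crossOverlap n β t := by
  have h := prof_lower n β hn h0 h1
  unfold prof at h
  have hb : 0 < β ^ 2 / 2 := by positivity
  have h2 := le_of_mul_le_mul_left h hb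
  linarith

/-- `β (1 - R_β(1))` is nondecreasing -/
theorem energy_mono (hn : 1 ≤ n) {b : ℝ} (hb : 0 < b) (hβ : b ≤ β) :
    b * (1 - crossOverlap n b 1) ≤ β * (1 - crossOverlap n β 1) := by
  rcases eq_or_lt_of_le hβ with rfl | hlt
  · exact le_rfl
  have hn0 : (0 : ℝ) < n := by exact_mod_cast hn
  have h1 := mean_tangent n b hn hb β
  have h2 := mean_tangent n β hn (hb.trans hlt) b
  have h3 : (n * (β - b) / 2) * (b * (1 - crossOverlap n b 1)) ≤
      (n * (β - b) / 2) * (β * (1 - crossOverlap n β 1)) := by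
    linarith
  exact le_of_mul_le_mul_left h3 (by have := sub_pos.2 hlt; positivity)

/-- integration of a linear lower bound for the overlap -/
theorem crossCov_lower_of (hn : 1 ≤ n) {c : ℝ} {t : ℝ} (h0 : 0 ≤ t) (h1 : t ≤ 1)
    (h : ∀ s : ℝ, 0 ≤ s → s ≤ 1 → 1 + c * s ≤ n * crossOverlap n β s) :
    β ^ 2 / 4 * c * t ^ 2 ≤ crossCov n β t := by
  rw [crossCov_formula n β hn h0 h1]
  have h2 : ∫ a in (0 : ℝ)..t, β ^ 2 / 2 * c * a ≤ ∫ a in (0 : ℝ)..t, prof n β a := by
    refine intervalIntegral.integral_mono_on h0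
      ((continuous_const.mul continuous_id).intervalIntegrable 0 t)
      (prof_intervalIntegrable n β hn le_rfl h0 h1) fun a ha => ?_
    unfold prof
    have h3 := h a ha.1 (ha.2.trans h1)
    have h4 : β ^ 2 / 2 * (c * a) ≤ β ^ 2 / 2 * (n * crossOverlap n β a - 1) :=
      mul_le_mul_of_nonneg_left (by linarith) (by positivity)
    linarith
  rw [intervalIntegral.integral_const_mul, integral_id] at h2
  refine le_trans (le_of_eq ?_) h2
  ring

/-- at `β₀ = 1/√8` -/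
lemma energy_small (hn : 1 ≤ n) :
    1 / Real.sqrt 8 * (1 - 4 / n) ≤ 1 / Real.sqrt 8 * (1 - crossOverlap n (1 / Real.sqrt 8) 1) := by
  have hn0 : (0 : ℝ) < n := by exact_mod_cast hn
  have h8 : (0 : ℝ) < Real.sqrt 8 := by positivity
  have h := small_overlap n (1 / Real.sqrt 8) hn (by positivity) (t := 1) zero_le_one le_rfl
    (by rw [div_pow, Real.sq_sqrt (by norm_num)]; norm_num)
  have h2 : crossOverlap n (1 / Real.sqrt 8) 1 ≤ 4 / n := by
    rw [le_div_iff₀ hn0]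
    linarith
  exact mul_le_mul_of_nonneg_left (by linarith) (by positivity)

/-- **Lower bound for the overlap**, all `β ≥ 1/2`, `n ≥ 8`. -/
theorem overlap_ge (hn : 8 ≤ n) (hβ : 1 / 2 ≤ β) {t : ℝ} (h0 : 0 ≤ t) (h1 : t ≤ 1) :
    1 + 1 / 32 * t ≤ n * crossOverlap n β t := by
  have hn1 : 1 ≤ n := by omega
  have hn8 : (8 : ℝ) ≤ n := by exact_mod_cast hn
  have h8 : (0 : ℝ) < Real.sqrt 8 := by positivity
  have hb : 1 / Real.sqrt 8 ≤ β := by
    refine le_trans ?_ hβ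
    rw [div_le_div_iff_of_pos_left one_pos h8 (by norm_num)]
    exact Real.le_sqrt_of_sq_le (by norm_num)
  have h2 := (energy_small n hn1).trans (energy_mono n β hn1 (by positivity) hb)
  have h3 : (1 : ℝ) / 2 ≤ 1 - 4 / n := by
    have : 4 / (n : ℝ) ≤ 1 / 2 := by
      rw [div_le_iff₀ (by linarith)]
      linarith
    linarith
  have h4 : 1 / Real.sqrt 8 * (1 / 2) ≤ β * (1 - crossOverlap n β 1) :=
    (mul_le_mul_of_nonneg_left h3 (by positivity)).trans h2
  have h5 : (1 / Real.sqrt 8 * (1 / 2)) ^ 2 ≤ (β * (1 - crossOverlap n β 1)) ^ 2 :=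
    pow_le_pow_left₀ (by positivity) h4 2
  have h6 : (1 / Real.sqrt 8 * (1 / 2)) ^ 2 = 1 / 32 := by
    rw [mul_pow, div_pow, Real.sq_sqrt (by norm_num)]
    norm_num
  rw [h6] at h5
  have h7 := overlap_lower n β hn1 (by linarith) h0 h1
  have h9 := mul_le_mul_of_nonneg_left h5 h0
  linarith

/-- **Lower bound for the covariance of correlated copies**, all `β ≥ 1/2`, `n ≥ 8`. -/
theorem crossCov_ge (hn : 8 ≤ n) (hβ : 1 / 2 ≤ β) {t : ℝ} (h0 : 0 ≤ t) (h1 : t ≤ 1) :
    β ^ 2 * t ^ 2 / 128 ≤ crossCov n β t := by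
  have h := crossCov_lower_of n β (by omega : 1 ≤ n) (c := 1 / 32) h0 h1
    fun _ hs0 hs1 => overlap_ge n β hn hβ hs0 hs1
  refine le_trans (le_of_eq ?_) h
  ring

end Vale.Agent.P146.R2.H952
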