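import Vale.Agent.P146.R2.H952.XDef
import Vale.Agent.P146.R2.H729.TrSpec

/-!
# P146: the exponent 12/5: the probabilistic rows
-/

open MeasureTheory ProbabilityTheory Matrix Filter Topology
open scoped Matrix.Norms.L2Operator

namespace Vale.Agent.P146.R2.H952.X

open Vale.Agent.P166 Vale.Agent.P146 Vale.Agent.P146.H605
open Vale.Agent.P146.R3 (chR sc muS PV)
open Vale.Agent.P146.R3.H432 (Qm Om)
open Vale.Agent.P146.R3.H952 (MinProf)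
open Vale.Agent.P146.Sk (Wm Ix)

/-- Row J: insertion of the order parameter of the SK model -/
def StJ : Prop := ∀ {β : ℝ}, 1 ≤ β → ∀ {x : ℝ → ℝ}, MinProf β x → ∀ (μ : Measure ℝ)
  [IsProbabilityMeasure μ], IsCompact μ.support → ∀ h0 g κ y0 : ℝ, 0 ≤ g → 0 ≤ y0 → y0 ≤ 1 →
  (∀ y : ℝ, 0 < y → P166.stInv μ y ≤ P166.stInv (muS β 0 0) y + h0) →
  (∀ y : ℝ, 0 < y → 1 - κ ≤ β * y → P166.stInv μ y ≤ P166.stInv (muS β 0 0) y + h0 - g) →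
  1 - κ < β * ∫ u in y0..1, x u → ∀ v : ℝ, IsGLB (PV 1 μ) v →
  v ≤ Sh.P0 β + h0 / 2 - g * y0 / 2

/-- Row P: the limit of the pressure -/
def StP : Prop := ∀ (β : ℝ), 0 < β → ∀ (L : ℕ) (c : ℕ → ℝ),
  IsProbabilityMeasure (muH β L c) ∧ IsCompact (muH β L c).support ∧
  ∃ v : ℝ, IsGLB (PV 1 (muH β L c)) v ∧
    ∀ᵐ ω ∂Qm, Tendsto (fun N : ℕ => pressure N 1
      (β • (Wm N (Vale.Agent.P146.R3.H432.zz N ω) -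
        H729.Tr.hm L c (Wm N (Vale.Agent.P146.R3.H432.zz N ω))))) atTop (𝓝 v)

/-- Row N: the norm -/
def StN : Prop := ∀ q : ℝ, 1 < q → ∀ᵐ ω ∂Qm, ∀ᶠ N : ℕ in atTop,
  ‖Wm N (Vale.Agent.P146.R3.H432.zz N ω)‖ ≤ q + q⁻¹

/-- Row T: the transport with `η = 1` -/
def StT : Prop := ∀ β : ℝ, 0 < β → ∀ (L : ℕ) (c : ℕ → ℝ) (q : ℝ), 1 < q → nrm L c q ≤ 1 / 2 →
  ∀ v : ℝ, IsGLB (PV 1 (muH β L c)) v → ∀ ε : ℝ, 0 < ε → ∀ᶠ n : ℕ in atTop,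
  Real.exp (-((cst L c + ε) * n ^ 2)) ≤
    (disorder n).real {g | freeEnergy n β g ≤ n * (v + Real.log 2 + ε)}

/-- Row Y: the order parameter near `0` -/
def StY : Prop := ∀ β : ℝ, 1 < β → ∃ (x : ℝ → ℝ) (A y₁ : ℝ), MinProf β x ∧ 0 < A ∧ 0 < y₁ ∧
  y₁ ≤ 1 ∧ ∀ y : ℝ, 0 ≤ y → y ≤ y₁ → 1 - A * y ^ 2 ≤ β * ∫ u in y..1, x u

/-- **The final statement.** -/
def StFin : Prop := ∀ {β : ℝ}, 1 < β → ∀ {p : ℝ},
  Tendsto (fun n : ℕ => (∫ g, freeEnergy n β g ∂(disorder n)) / n) atTop (𝓝 p) →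
  ∃ C δ : ℝ, 0 < C ∧ 0 < δ ∧ ∀ s : ℝ, 0 < s → s ≤ δ → ∀ᶠ n : ℕ in atTop,
    Real.exp (-(C * s ^ (12 / 5 : ℝ) * n ^ 2)) ≤
      (disorder n).real {g | freeEnergy n β g ≤ n * (p - s)}

end Vale.Agent.P146.R2.H952.X
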